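import Crest.Agent.R339.Defs

/-! # Row 339 API: unitaries and exponentials (statements frozen) -/

set_option autoImplicit false
open MeasureTheory ProbabilityTheory Filter Topology Complex
open Crest.MathPhysics.SpinGlass

namespace Crest.Agent.R339
variable {E K : Type} [NormedAddCommGroup E] [InnerProductSpace ℂ E]
  [NormedAddCommGroup K] [InnerProductSpace ℂ K] [CompleteSpace K]

theorem unit_norm {U : K →L[ℂ] K} (hU : U ∈ unitary (K →L[ℂ] K)) (x : K) : ‖U x‖ = ‖x‖ := by
  exact ContinuousLinearMap.norm_map_of_mem_unitary hU x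
theorem unit_inner {U : K →L[ℂ] K} (hU : U ∈ unitary (K →L[ℂ] K)) (x y : K) :
    inner ℂ (U x) (U y) = inner ℂ x y := by
  exact ContinuousLinearMap.inner_map_map_of_mem_unitary hU x y
theorem unit_opnorm {U : K →L[ℂ] K} (hU : U ∈ unitary (K →L[ℂ] K)) : ‖U‖ ≤ 1 := by
  exact U.opNorm_le_bound zero_le_one fun x => by rw [unit_norm hU, one_mul]
theorem unit_smul {U : K →L[ℂ] K} (hU : U ∈ unitary (K →L[ℂ] K)) {θ : ℂ} (hθ : ‖θ‖ = 1) :
    θ • U ∈ unitary (K →L[ℂ] K) := by
  have h : star θ * θ = 1 := by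
    rw [RCLike.star_def, Complex.conj_mul', hθ]
    simp
  rw [Unitary.mem_iff] at hU ⊢
  constructor
  · rw [star_smul, smul_mul_smul_comm, hU.1, h, one_smul]
  · rw [star_smul, smul_mul_smul_comm, hU.2, mul_comm θ, h, one_smul]
theorem unit_star_apply {U : K →L[ℂ] K} (hU : U ∈ unitary (K →L[ℂ] K)) (x : K) :
    star U (U x) = x := by
  have := congrArg (fun T : K →L[ℂ] K => T x) (Unitary.mem_iff.mp hU).1
  simpa using this
theorem unit_apply_star {U : K →L[ℂ] K} (hU : U ∈ unitary (K →L[ℂ] K)) (x : K) :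
    U (star U x) = x := by
  have := congrArg (fun T : K →L[ℂ] K => T x) (Unitary.mem_iff.mp hU).2
  simpa using this
theorem inner_star_left (A : K →L[ℂ] K) (x y : K) : inner ℂ (star A x) y = inner ℂ x (A y) := by
  rw [ContinuousLinearMap.star_eq_adjoint, ContinuousLinearMap.adjoint_inner_left]
theorem inner_star_right (A : K →L[ℂ] K) (x y : K) : inner ℂ x (star A y) = inner ℂ (A x) y := by
  rw [ContinuousLinearMap.star_eq_adjoint, ContinuousLinearMap.adjoint_inner_right]
/-- comparison of Heisenberg vectors. -/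
theorem sand_close {V U : K →L[ℂ] K} (hV : V ∈ unitary (K →L[ℂ] K))
    (hU : U ∈ unitary (K →L[ℂ] K)) (A : K →L[ℂ] K) (x : K) :
    ‖star V (A (V x)) - star U (A (U x))‖ ≤
      ‖A‖ * ‖V x - U x‖ + ‖V (star U (A (U x))) - U (star U (A (U x)))‖ := by
  set y := star U (A (U x)) with hy
  have h1 : U y = A (U x) := unit_apply_star hU _
  rw [← unit_norm hV, map_sub, unit_apply_star hV, h1]
  have h2 : A (V x) - V y = A (V x - U x) - (V y - A (U x)) := by
    rw [map_sub]; abel
  rw [h2]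
  exact (norm_sub_le _ _).trans (add_le_add (A.le_opNorm _) le_rfl)
theorem eI_mem {A : K →L[ℂ] K} (hA : star A = A) : eI A ∈ unitary (K →L[ℂ] K) := by
  let +nondep : NormedAlgebra ℚ (K →L[ℂ] K) := .restrictScalars ℚ ℂ _
  refine NormedSpace.exp_mem_unitary_of_mem_skewAdjoint ?_
  rw [skewAdjoint.mem_iff, star_smul, hA]
  simp
theorem eI_star {A : K →L[ℂ] K} (hA : star A = A) : star (eI A) = eI (-A) := by
  rw [eI, eI, NormedSpace.star_exp, star_smul, hA]
  simp
theorem eI_zero : eI (0 : K →L[ℂ] K) = 1 := by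
  rw [eI, smul_zero, NormedSpace.exp_zero]
theorem eI_add {A B : K →L[ℂ] K} (h : Commute A B) : eI (A + B) = eI A * eI B := by
  let +nondep : NormedAlgebra ℚ (K →L[ℂ] K) := .restrictScalars ℚ ℂ _
  rw [eI, eI, eI, smul_add]
  exact NormedSpace.exp_add_of_commute ((h.smul_left _).smul_right _)
theorem eI_commute {A T : K →L[ℂ] K} (h : Commute T A) : Commute T (eI A) := by
  exact (h.smul_right _).exp_right
theorem eI_conj {U : K →L[ℂ] K} (hU : U ∈ unitary (K →L[ℂ] K)) (A : K →L[ℂ] K) :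
    star U * eI A * U = eI (star U * A * U) := by
  let +nondep : NormedAlgebra ℚ (K →L[ℂ] K) := .restrictScalars ℚ ℂ _
  have h := NormedSpace.exp_units_conj' (Unitary.toUnits ⟨U, hU⟩) ((-I) • A)
  rw [eI, eI, ← smul_mul_assoc, ← mul_smul_comm]
  exact h.symm
theorem eI_pow (A : K →L[ℂ] K) (N : ℕ) : eI A ^ N = eI ((N : ℂ) • A) := by
  let +nondep : NormedAlgebra ℚ (K →L[ℂ] K) := .restrictScalars ℚ ℂ _
  rw [eI, eI, ← NormedSpace.exp_nsmul, smul_comm (-I), Nat.cast_smul_eq_nsmul]
theorem a0_star_smul {A : K →L[ℂ] K} (hA : star A = A) (t : ℝ) : star (t • A) = t • A := by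
  rw [star_smul, hA, star_trivial]
theorem a0_move {A : K →L[ℂ] K} (hA : star A = A) (x : K) : ‖eI A x - x‖ ≤ ‖A x‖ := by
  have hd : ∀ t : ℝ, HasDerivAt (fun u : ℝ => NormedSpace.exp (u • ((-I) • A)) x)
      (NormedSpace.exp (t • ((-I) • A)) (((-I) • A) x)) t := by
    intro t
    have h1 := hasDerivAt_exp_smul_const ((-I) • A) t
    have h2 := ((ContinuousLinearMap.apply ℂ K x).restrictScalars ℝ).hasFDerivAt.comp_hasDerivAt
      t h1
    exact h2
  have h := norm_image_sub_le_of_norm_deriv_le_segment_01' (C := ‖A x‖)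
    (fun t _ => (hd t).hasDerivWithinAt) (fun t _ => by
      have h2 := eI_mem (a0_star_smul hA t)
      rw [eI, smul_comm] at h2
      rw [unit_norm h2, smul_apply, norm_smul, norm_neg, Complex.norm_I,
        one_mul])
  simpa [eI] using h
theorem eI_taylor {A : K →L[ℂ] K} (hA : star A = A) : ‖eI A - (1 - I • A)‖ ≤ ‖A‖ ^ 2 := by
  have hd : ∀ t : ℝ, HasDerivAt
      (fun u : ℝ => NormedSpace.exp (u • ((-I) • A)) - u • ((-I) • A))
      (((-I) • A) * (NormedSpace.exp (t • ((-I) • A)) - 1)) t := by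
    intro t
    have h1 := (hasDerivAt_exp_smul_const' ((-I) • A) t).sub
      ((hasDerivAt_id t).smul_const ((-I) • A))
    rw [one_smul] at h1
    rw [mul_sub, mul_one]
    exact h1
  have h := norm_image_sub_le_of_norm_deriv_le_segment_01' (C := ‖A‖ ^ 2)
    (fun t _ => (hd t).hasDerivWithinAt) (fun t ht => by
      refine (norm_mul_le _ _).trans ?_
      rw [norm_smul, norm_neg, Complex.norm_I, one_mul, sq]
      refine mul_le_mul_of_nonneg_left ?_ (norm_nonneg _)
      refine ContinuousLinearMap.opNorm_le_bound _ (norm_nonneg _) fun x => ?_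
      have h2 := a0_move (a0_star_smul hA t) x
      rw [eI, smul_comm] at h2
      refine h2.trans ?_
      rw [smul_apply, norm_smul, Real.norm_of_nonneg ht.1]
      exact (mul_le_of_le_one_left (norm_nonneg _) ht.2.le).trans (A.le_opNorm x))
  simp only [one_smul, zero_smul, NormedSpace.exp_zero, sub_zero] at h
  have h3 : eI A - (1 - I • A) = NormedSpace.exp ((-I) • A) - (-I) • A - 1 := by
    rw [eI, neg_smul]; abel
  rw [h3]
  exact h
/-- Duhamel for commuting self-adjoint generators. -/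
theorem eI_duhamel {A B : K →L[ℂ] K} (hA : star A = A) (hB : star B = B) (h : Commute A B)
    (x : K) : ‖eI A x - eI B x‖ ≤ ‖A x - B x‖ := by
  have h1 : eI A = eI B * eI (A - B) := by
    rw [← eI_add (h.symm.sub_right (Commute.refl B))]
    congr 1
    abel
  have h2 : star (A - B) = A - B := by rw [star_sub, hA, hB]
  rw [h1, mul_apply_eq_comp, ← map_sub, unit_norm (eI_mem hB)]
  exact a0_move h2 x
theorem a0_pow_le {v : K →L[ℂ] K} (hv : ‖v‖ ≤ 1) (n : ℕ) : ‖v ^ n‖ ≤ 1 := by
  induction n with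
  | zero => exact ContinuousLinearMap.norm_id_le
  | succ n ih =>
    rw [pow_succ]
    exact (norm_mul_le _ _).trans (mul_le_one₀ ih (norm_nonneg _) hv)
/-- telescoping for products of contractions. -/
theorem trotter_prod (L : List (K →L[ℂ] K)) (v : K →L[ℂ] K) (δ : ℝ) (hv : ‖v‖ ≤ 1)
    (hL : ∀ u ∈ L, ‖u‖ ≤ 1 ∧ ‖u - v‖ ≤ δ) : ‖L.prod - v ^ L.length‖ ≤ L.length * δ := by
  induction L with
  | nil => simp
  | cons u L ih =>
    have h1 := hL u (List.mem_cons_self ..)
    have h2 := ih fun w hw => hL w (List.mem_cons_of_mem _ hw)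
    have h3 : ‖v ^ L.length‖ ≤ 1 := a0_pow_le hv _
    have h4 : u * L.prod - v ^ (L.length + 1) =
        u * (L.prod - v ^ L.length) + (u - v) * v ^ L.length := by
      rw [pow_succ', mul_sub, sub_mul]; abel
    rw [List.prod_cons, List.length_cons, h4]
    refine (norm_add_le _ _).trans ?_
    have h5 := (norm_mul_le u (L.prod - v ^ L.length)).trans
      (mul_le_mul h1.1 h2 (norm_nonneg _) zero_le_one)
    have h6 := (norm_mul_le (u - v) (v ^ L.length)).trans
      (mul_le_mul h1.2 h3 (norm_nonneg _) ((norm_nonneg _).trans h1.2))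
    push_cast
    linarith
theorem trotter_pow (u v : K →L[ℂ] K) (δ : ℝ) (hu : ‖u‖ ≤ 1) (hv : ‖v‖ ≤ 1) (h : ‖u - v‖ ≤ δ)
    (N : ℕ) : ‖u ^ N - v ^ N‖ ≤ N * δ := by
  have := trotter_prod (List.replicate N u) v δ hv fun w hw => by
    rw [List.eq_of_mem_replicate hw]
    exact ⟨hu, h⟩
  simpa using this

end Crest.Agent.R339
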