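import Crest.Agent.R339.Api.A0

/-! # Row 339 API: spin algebra (statements frozen) -/

set_option autoImplicit false
open MeasureTheory ProbabilityTheory Filter Topology Complex
open Crest.MathPhysics.SpinGlass

namespace Crest.Agent.R339
variable {E K : Type} [NormedAddCommGroup E] [InnerProductSpace ℂ E]
  [NormedAddCommGroup K] [InnerProductSpace ℂ K] [CompleteSpace K]

namespace Model
variable (M : Model E K)

theorem Z_mem : M.Z ∈ unitary (K →L[ℂ] K) := by
  rw [Unitary.mem_iff, M.Z_star]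
  exact ⟨M.Z_Z, M.Z_Z⟩
theorem X_mem : M.X ∈ unitary (K →L[ℂ] K) := by
  rw [Unitary.mem_iff, M.X_star]
  exact ⟨M.X_X, M.X_X⟩
theorem Y_star : star M.Y = M.Y := by
  rw [Y, star_smul, star_mul, M.Z_star, M.X_star, M.Z_X]
  simp
theorem Y_Y : M.Y * M.Y = 1 := by
  rw [Y, smul_mul_smul_comm, mul_assoc, ← mul_assoc M.Z, M.Z_X, neg_mul, mul_neg, mul_assoc, M.Z_Z, mul_one, M.X_X,
    I_mul_I]
  simp
theorem Y_mem : M.Y ∈ unitary (K →L[ℂ] K) := by
  rw [Unitary.mem_iff, M.Y_star]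
  exact ⟨M.Y_Y, M.Y_Y⟩
theorem X_Z_eq : M.X * M.Z = (-I) • M.Y := by
  rw [Y, smul_smul, neg_mul, I_mul_I, neg_neg, one_smul]
theorem Z_X_eq : M.Z * M.X = I • M.Y := by
  rw [Y, smul_smul, I_mul_I, M.Z_X, neg_smul, one_smul]
theorem Y_Z_eq : M.Y * M.Z = I • M.X := by
  rw [Y, smul_mul_assoc, mul_assoc, M.Z_Z, mul_one]
theorem Z_Y_eq : M.Z * M.Y = (-I) • M.X := by
  rw [Y, mul_smul_comm, ← mul_assoc, M.Z_X, neg_mul, mul_assoc, M.Z_Z, mul_one, smul_neg, neg_smul]
theorem X_Y_eq : M.X * M.Y = I • M.Z := by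
  rw [Y, mul_smul_comm, ← mul_assoc, M.X_X, one_mul]
theorem Y_X_eq : M.Y * M.X = (-I) • M.Z := by
  rw [Y, smul_mul_assoc, mul_assoc, M.Z_X, mul_neg, ← mul_assoc, M.X_X, one_mul, smul_neg, neg_smul]
theorem Y_W (f : E) : Commute M.Y (M.W f) := by
  exact ((M.X_W f).mul_left (M.Z_W f)).smul_left I
theorem a1_XZΩ : M.X (M.Z M.Ω) = - M.Z M.Ω := by
  have h : M.Z (M.X M.Ω) = -M.X (M.Z M.Ω) := congrArg (fun T : K →L[ℂ] K => T M.Ω) M.Z_X
  rw [M.X_Ω] at h
  rw [← neg_eq_iff_eq_neg, ← h]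
theorem Y_Ω : M.Y M.Ω = (-I) • M.Z M.Ω := by
  rw [Y, ContinuousLinearMap.smul_apply, ContinuousLinearMap.mul_apply, M.a1_XZΩ, smul_neg, neg_smul]
theorem X_ZΩ : M.X (M.Z M.Ω) = - M.Z M.Ω := by
  exact M.a1_XZΩ
theorem inner_even_odd {x y : K} (hx : M.X x = x) (hy : M.X y = -y) : inner ℂ x y = 0 := by
  have h : inner ℂ (M.X x) y = inner ℂ x (M.X y) := by
    rw [← ContinuousLinearMap.adjoint_inner_right, ← ContinuousLinearMap.star_eq_adjoint, M.X_star]
  rw [hx, hy, inner_neg_right] at h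
  linear_combination h / 2
theorem P_star (b : Bool) : star (M.P b) = M.P b := by
  simp [P, star_smul, M.Z_star]
theorem a1_sq (b : Bool) : spinSign b * spinSign b = 1 := by
  cases b <;> simp [spinSign]
theorem a1_not (b : Bool) : spinSign (!b) = -spinSign b := by
  cases b <;> simp [spinSign]
theorem a1_mul (s t : ℂ) : ((1 / 2 : ℂ) • (1 + s • M.Z)) * ((1 / 2 : ℂ) • (1 + t • M.Z)) =
    (1 / 4 : ℂ) • ((1 + s * t) • (1 : K →L[ℂ] K) + (s + t) • M.Z) := by
  simp only [smul_mul_assoc, mul_smul_comm, add_mul, mul_add, one_mul, mul_one, M.Z_Z]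
  module
theorem P_P (b : Bool) : M.P b * M.P b = M.P b := by
  have h := M.a1_mul (spinSign b) (spinSign b)
  rw [P, h, ← ofReal_mul, a1_sq b]
  module
theorem P_P_not (b : Bool) : M.P b * M.P (!b) = 0 := by
  rw [P, P, M.a1_mul, ← ofReal_mul, ← ofReal_add, a1_not, mul_neg, a1_sq b]
  simp
theorem P_add : M.P false + M.P true = 1 := by
  simp only [P, spinSign]
  push_cast
  module
theorem P_sub : M.P false - M.P true = M.Z := by
  simp only [P, spinSign]
  push_cast
  module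
theorem Z_P (b : Bool) : M.Z * M.P b = ((spinSign b : ℝ) : ℂ) • M.P b := by
  have h : ((spinSign b : ℝ) : ℂ) * ((spinSign b : ℝ) : ℂ) = 1 := by rw [← ofReal_mul, a1_sq, ofReal_one]
  simp only [P, mul_smul_comm, mul_add, mul_one, M.Z_Z]
  rw [smul_comm _ (1 / 2 : ℂ), smul_add ((spinSign b : ℝ) : ℂ), smul_smul, h, one_smul, add_comm]
theorem P_Z (b : Bool) : Commute M.Z (M.P b) := by
  exact (((Commute.one_right _).add_right ((Commute.refl _).smul_right _))).smul_right _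
theorem X_P (b : Bool) : M.X * M.P b = M.P (!b) * M.X := by
  simp only [P, mul_smul_comm, smul_mul_assoc, mul_add, add_mul, mul_one, one_mul, M.Z_X, a1_not, ofReal_neg, smul_neg,
    neg_smul, neg_mul, neg_neg]
theorem P_W (b : Bool) (f : E) : Commute (M.P b) (M.W f) := by
  exact (((Commute.one_left _).add_left ((M.Z_W f).smul_left _))).smul_left _
theorem P_commute {T : K →L[ℂ] K} (h : Commute M.Z T) (b : Bool) : Commute (M.P b) T := by
  exact (((Commute.one_left _).add_left (h.smul_left _))).smul_left _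
theorem norm_P (b : Bool) : ‖M.P b‖ ≤ 1 := by
  exact IsStarProjection.norm_le (M.P b) ⟨M.P_P b, M.P_star b⟩
theorem norm_sq_P (x : K) : ‖x‖ ^ 2 = ‖M.P false x‖ ^ 2 + ‖M.P true x‖ ^ 2 := by
  have h0 : inner ℂ (M.P false x) (M.P true x) = 0 := by
    rw [← ContinuousLinearMap.adjoint_inner_right, ← ContinuousLinearMap.star_eq_adjoint, M.P_star,
      ← ContinuousLinearMap.mul_apply, show M.P false * M.P true = 0 from M.P_P_not false]
    simp
  have h1 : x = M.P false x + M.P true x := by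
    rw [← ContinuousLinearMap.add_apply, M.P_add, ContinuousLinearMap.one_apply]
  have h2 := norm_add_sq_eq_norm_sq_add_norm_sq_of_inner_eq_zero (𝕜 := ℂ) _ _ h0
  rw [← h1] at h2
  simpa only [sq] using h2

end Model
end Crest.Agent.R339
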