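import Crest.Agent.R339.Api.A1

/-! # Row 339 API: rotations (statements frozen) -/

set_option autoImplicit false
set_option linter.unusedSectionVars false
open MeasureTheory ProbabilityTheory Filter Topology Complex
open Crest.MathPhysics.SpinGlass

namespace Crest.Agent.R339
variable {E K : Type} [NormedAddCommGroup E] [InnerProductSpace ℂ E]
  [NormedAddCommGroup K] [InnerProductSpace ℂ K] [CompleteSpace K]

namespace Model
variable (M : Model E K)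

/-- `exp (-i θ T)` for an involution `T` -/
noncomputable def a2_R (T : K →L[ℂ] K) (θ : ℝ) : K →L[ℂ] K :=
  ((Real.cos θ : ℝ) : ℂ) • (1 : K →L[ℂ] K) - (I * ((Real.sin θ : ℝ) : ℂ)) • T

theorem a2_mul {T : K →L[ℂ] K} (h : T * T = 1) (p q p' q' : ℂ) :
    (p • (1 : K →L[ℂ] K) - (I * q) • T) * (p' • (1 : K →L[ℂ] K) - (I * q') • T) =
      (p * p' - q * q') • (1 : K →L[ℂ] K) - (I * (p * q' + q * p')) • T := by
  simp only [sub_mul, mul_sub, smul_mul_assoc, mul_smul_comm, one_mul, mul_one, h, smul_sub, smul_smul]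
  have : I * q' * (I * q) = -(q * q') := by linear_combination (q * q') * I_mul_I
  rw [this]
  module

theorem a2_star {T : K →L[ℂ] K} (h : star T = T) (p q : ℝ) :
    star ((p : ℂ) • (1 : K →L[ℂ] K) - (I * (q : ℂ)) • T) = (p : ℂ) • (1 : K →L[ℂ] K) - (I * ((-q : ℝ) : ℂ)) • T := by
  simp [h]

theorem a2_norm {T : K →L[ℂ] K} (h : T * T = 1) (h' : star T = T) {p q c : ℝ} (hc : 0 ≤ c)
    (hpq : p ^ 2 + q ^ 2 ≤ c ^ 2) : ‖(p : ℂ) • (1 : K →L[ℂ] K) - (I * (q : ℂ)) • T‖ ≤ c := by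
  refine abs_le_of_sq_le_sq' ?_ hc |>.2
  rw [sq, ← CStarRing.norm_star_mul_self, a2_star h', a2_mul h]
  have e1 : (p : ℂ) * p - ((-q : ℝ) : ℂ) * q = ((p ^ 2 + q ^ 2 : ℝ) : ℂ) := by push_cast; ring
  have e2 : (p : ℂ) * q + ((-q : ℝ) : ℂ) * p = 0 := by push_cast; ring
  rw [e1, e2, mul_zero, zero_smul, sub_zero, norm_smul, Complex.norm_real, Real.norm_of_nonneg (by positivity)]
  exact (mul_le_of_le_one_right (by positivity) ContinuousLinearMap.norm_id_le).trans hpq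

theorem a2_zero (T : K →L[ℂ] K) : a2_R T 0 = 1 := by simp [a2_R]

theorem a2_add {T : K →L[ℂ] K} (h : T * T = 1) (a b : ℝ) : a2_R T (a + b) = a2_R T a * a2_R T b := by
  rw [a2_R, a2_R, a2_R, a2_mul h, Real.cos_add, Real.sin_add]
  push_cast
  rw [add_comm (sin (a : ℂ) * _)]

theorem a2_star' {T : K →L[ℂ] K} (h : star T = T) (a : ℝ) : star (a2_R T a) = a2_R T (-a) := by
  rw [a2_R, a2_R, a2_star h, Real.cos_neg, Real.sin_neg]

theorem a2_mem {T : K →L[ℂ] K} (h : T * T = 1) (h' : star T = T) (a : ℝ) : a2_R T a ∈ unitary (K →L[ℂ] K) := by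
  rw [Unitary.mem_iff, a2_star' h', ← a2_add h, ← a2_add h, neg_add_cancel, add_neg_cancel, a2_zero]
  exact ⟨rfl, rfl⟩

theorem a2_commute {T S : K →L[ℂ] K} (h : Commute T S) (a : ℝ) : Commute (a2_R T a) S :=
  ((Commute.one_left S).smul_left _).sub_left (h.smul_left _)

theorem a2_anti {T S : K →L[ℂ] K} (h : S * T = -(T * S)) (a : ℝ) : S * a2_R T a = a2_R T (-a) * S := by
  simp [a2_R, mul_sub, add_mul, h]

theorem a2_conj {T S : K →L[ℂ] K} (h : T * T = 1) (h' : star T = T) (hS : S * T = -(T * S)) (a : ℝ) :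
    star (a2_R T a) * S * a2_R T a =
      ((Real.cos (2 * a) : ℝ) : ℂ) • S - (I * ((Real.sin (2 * a) : ℝ) : ℂ)) • (S * T) := by
  rw [a2_star' h', ← a2_anti hS, mul_assoc, ← a2_add h, ← two_mul, a2_R, mul_sub, mul_smul_comm, mul_smul_comm,
    mul_one]

theorem a2_sub {T : K →L[ℂ] K} (h : T * T = 1) (h' : star T = T) (a b : ℝ) : ‖a2_R T a - a2_R T b‖ ≤ |a - b| := by
  have e : a2_R T a - a2_R T b = ((Real.cos a - Real.cos b : ℝ) : ℂ) • (1 : K →L[ℂ] K) -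
      (I * ((Real.sin a - Real.sin b : ℝ) : ℂ)) • T := by
    rw [a2_R, a2_R, Complex.ofReal_sub, Complex.ofReal_sub]
    module
  rw [e]
  refine a2_norm h h' (abs_nonneg _) ?_
  have h1 := Real.one_sub_sq_div_two_le_cos (x := a - b)
  rw [Real.cos_sub] at h1
  rw [sq_abs]
  nlinarith [Real.sin_sq_add_cos_sq a, Real.sin_sq_add_cos_sq b]

theorem a2_cont (T : K →L[ℂ] K) : Continuous (a2_R T) := by
  unfold a2_R
  fun_prop

theorem a2_exp (a : ℝ) : cexp (-(I * (a : ℂ))) = (Real.cos a : ℂ) - I * (Real.sin a : ℂ) := by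
  rw [show -(I * (a : ℂ)) = (-a : ℂ) * I by ring, Complex.exp_mul_I, Complex.cos_neg, Complex.sin_neg]
  push_cast
  ring

theorem a2_sin (a : ℝ) : (Real.sin a - a) ^ 2 ≤ (a ^ 2 / 2) ^ 2 := by
  wlog h : 0 ≤ a generalizing a
  · have := this (-a) (by linarith)
    rw [Real.sin_neg] at this
    nlinarith
  rw [sub_sq_comm]
  refine pow_le_pow_left₀ (sub_nonneg.2 (Real.sin_le h)) ?_ 2
  rcases le_total a 3 with h3 | h3
  · have := Real.sin_ge_sub_cube h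
    nlinarith [mul_nonneg (sq_nonneg a) (sub_nonneg.2 h3)]
  · nlinarith [Real.neg_one_le_sin a]

theorem RX_zero : M.RX 0 = 1 := by
  exact a2_zero M.X
theorem RX_add (a b : ℝ) : M.RX (a + b) = M.RX a * M.RX b := by
  exact a2_add M.X_X a b
theorem RX_star (a : ℝ) : star (M.RX a) = M.RX (-a) := by
  exact a2_star' M.X_star a
theorem RX_mem (a : ℝ) : M.RX a ∈ unitary (K →L[ℂ] K) := by
  exact a2_mem M.X_X M.X_star a
theorem RX_commute {T : K →L[ℂ] K} (h : Commute M.X T) (a : ℝ) : Commute (M.RX a) T := by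
  exact a2_commute h a
theorem RX_conj_Z (a : ℝ) : star (M.RX a) * M.Z * M.RX a =
    ((Real.cos (2 * a) : ℝ) : ℂ) • M.Z + ((Real.sin (2 * a) : ℝ) : ℂ) • M.Y := by
  refine (a2_conj M.X_X M.X_star M.Z_X a).trans ?_
  rw [M.Z_X_eq, smul_smul, mul_right_comm, I_mul_I, neg_one_mul, neg_smul, sub_neg_eq_add]
theorem RX_conj_Y (a : ℝ) : star (M.RX a) * M.Y * M.RX a =
    ((Real.cos (2 * a) : ℝ) : ℂ) • M.Y - ((Real.sin (2 * a) : ℝ) : ℂ) • M.Z := by
  refine (a2_conj M.X_X M.X_star (by rw [M.Y_X_eq, M.X_Y_eq, neg_smul]) a).trans ?_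
  rw [M.Y_X_eq, smul_smul, mul_right_comm, mul_neg, I_mul_I, neg_neg, one_mul]
theorem RX_pi_div_two : M.RX (Real.pi / 2) = (-I) • M.X := by
  simp [RX]
theorem RX_neg_pi_div_two : M.RX (-(Real.pi / 2)) = I • M.X := by
  simp [RX]
theorem RX_Ω (a : ℝ) : M.RX a M.Ω = cexp (-(I * (a : ℂ))) • M.Ω := by
  rw [a2_exp, RX, sub_smul]
  simp only [sub_apply, smul_apply, M.X_Ω]
  rfl
theorem norm_RX_sub_one (a : ℝ) : ‖M.RX a - 1‖ ≤ |a| := by
  have := a2_sub M.X_X M.X_star a 0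
  rwa [a2_zero, sub_zero] at this
theorem norm_RX_sub (a b : ℝ) : ‖M.RX a - M.RX b‖ ≤ |a - b| := by
  exact a2_sub M.X_X M.X_star a b
theorem RX_taylor (a : ℝ) : ‖M.RX a - (1 - (I * (a : ℂ)) • M.X)‖ ≤ a ^ 2 := by
  have e : M.RX a - (1 - (I * (a : ℂ)) • M.X) = ((Real.cos a - 1 : ℝ) : ℂ) • (1 : K →L[ℂ] K) -
      (I * ((Real.sin a - a : ℝ) : ℂ)) • M.X := by
    rw [RX, Complex.ofReal_sub, Complex.ofReal_sub, Complex.ofReal_one]
    module
  rw [e]
  refine a2_norm M.X_X M.X_star (sq_nonneg _) ?_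
  have h1 : (Real.cos a - 1) ^ 2 ≤ (a ^ 2 / 2) ^ 2 := by
    rw [sub_sq_comm]
    exact pow_le_pow_left₀ (sub_nonneg.2 (Real.cos_le_one a))
      (by linarith [Real.one_sub_sq_div_two_le_cos (x := a)]) 2
  nlinarith [a2_sin a, sq_nonneg (a ^ 2)]
theorem continuous_RX : Continuous M.RX := by
  exact a2_cont M.X
theorem RZ_zero : M.RZ 0 = 1 := by
  exact a2_zero M.Z
theorem RZ_add (a b : ℝ) : M.RZ (a + b) = M.RZ a * M.RZ b := by
  exact a2_add M.Z_Z a b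
theorem RZ_star (a : ℝ) : star (M.RZ a) = M.RZ (-a) := by
  exact a2_star' M.Z_star a
theorem RZ_mem (a : ℝ) : M.RZ a ∈ unitary (K →L[ℂ] K) := by
  exact a2_mem M.Z_Z M.Z_star a
theorem RZ_commute {T : K →L[ℂ] K} (h : Commute M.Z T) (a : ℝ) : Commute (M.RZ a) T := by
  exact a2_commute h a
theorem RZ_P (a : ℝ) (b : Bool) :
    M.RZ a * M.P b = cexp (-(I * ((a * spinSign b : ℝ) : ℂ))) • M.P b := by
  rw [a2_exp, RZ, sub_mul, smul_mul_assoc, smul_mul_assoc, one_mul, M.Z_P, smul_smul, ← sub_smul]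
  congr 1
  cases b <;> simp [spinSign]
theorem X_RZ (a : ℝ) : M.X * M.RZ a = M.RZ (-a) * M.X := by
  exact a2_anti (by rw [M.Z_X, neg_neg]) a
theorem RZ_pi_div_two : M.RZ (Real.pi / 2) = (-I) • M.Z := by
  simp [RZ]
theorem norm_RZ_sub_one (a : ℝ) : ‖M.RZ a - 1‖ ≤ |a| := by
  have := a2_sub M.Z_Z M.Z_star a 0
  rwa [a2_zero, sub_zero] at this
theorem continuous_RZ : Continuous M.RZ := by
  exact a2_cont M.Z

end Model
end Crest.Agent.R339
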