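import Crest.Agent.R339.Api.A2

/-! # Row 339 API: Weyl algebra (statements frozen) -/

set_option autoImplicit false
open MeasureTheory ProbabilityTheory Filter Topology Complex
open Crest.MathPhysics.SpinGlass

namespace Crest.Agent.R339
variable {E K : Type} [NormedAddCommGroup E] [InnerProductSpace ℂ E]
  [NormedAddCommGroup K] [InnerProductSpace ℂ K] [CompleteSpace K]

namespace Model
variable (M : Model E K)

theorem W_mem (f : E) : M.W f ∈ unitary (K →L[ℂ] K) := by
  rw [Unitary.mem_iff, M.W_star, M.W_mul, M.W_mul]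
  simp [M.W_zero, inner_self_eq_norm_sq_to_K, ← Complex.ofReal_pow]
theorem W_comm (f g : E) :
    M.W f * M.W g = cexp (-(2 * I * ((inner ℂ f g).im : ℂ))) • (M.W g * M.W f) := by
  have h : (inner ℂ g f).im = -(inner ℂ f g).im := by
    rw [← inner_conj_symm g f, Complex.conj_im]
  rw [M.W_mul, M.W_mul, smul_smul, ← Complex.exp_add, add_comm g f, h]
  congr 2
  push_cast
  ring
theorem W_commute {f g : E} (h : (inner ℂ f g).im = 0) : Commute (M.W f) (M.W g) := by
  have := M.W_comm f g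
  rw [h] at this
  simpa [Commute, SemiconjBy] using this
theorem W_add_of_im {f g : E} (h : (inner ℂ f g).im = 0) : M.W (f + g) = M.W f * M.W g := by
  rw [M.W_mul, h]
  simp
theorem a3_W_add (f g : E) :
    M.W (f + g) = cexp (I * ((inner ℂ f g).im : ℂ)) • (M.W f * M.W g) := by
  rw [M.W_mul, smul_smul, ← Complex.exp_add]
  simp

/-- an operator commuting with the `W (a i • f i)` commutes with `W (Σ a i • f i)`. -/
theorem commute_W_sum {ι' : Type} (s : Finset ι') (g : ι' → E) {T : K →L[ℂ] K}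
    (h : ∀ i ∈ s, Commute (M.W (g i)) T) : Commute (M.W (∑ i ∈ s, g i)) T := by
  classical
  induction s using Finset.induction_on with
  | empty => simp [M.W_zero]
  | insert a s ha ih =>
    rw [Finset.sum_insert ha, M.a3_W_add]
    exact ((h a (Finset.mem_insert_self _ _)).mul_left
      (ih fun i hi => h i (Finset.mem_insert_of_mem hi))).smul_left _
theorem WZ_zero : M.WZ 0 = 1 := by
  rw [WZ, neg_zero, M.W_zero, mul_one, mul_one, M.P_add]
theorem WZ_star (f : E) : star (M.WZ f) = M.WZ (-f) := by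
  rw [WZ, WZ, star_add, star_mul, star_mul, M.W_star, M.W_star, M.P_star, M.P_star,
    (M.P_W false _).eq, (M.P_W true _).eq]
theorem WZ_mul (f g : E) :
    M.WZ f * M.WZ g = cexp (-(I * ((inner ℂ f g).im : ℂ))) • M.WZ (f + g) := by
  have h : ∀ b b' (u v : E), M.P b * M.W u * (M.P b' * M.W v) = M.P b * M.P b' * (M.W u * M.W v) :=
    fun b b' u v => by
      rw [mul_assoc, ← mul_assoc (M.W u), ← (M.P_W b' u).eq]; simp only [mul_assoc]
  have h₁ : M.P false * M.P true = 0 := M.P_P_not false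
  have h₂ : M.P true * M.P false = 0 := M.P_P_not true
  rw [WZ, WZ, WZ, add_mul, mul_add, mul_add, h, h, h, h, h₁, h₂, M.P_P, M.P_P, zero_mul, zero_mul,
    add_zero, zero_add, M.W_mul, M.W_mul, inner_neg_neg, smul_add, mul_smul_comm, mul_smul_comm,
    neg_add]
theorem WZ_mem (f : E) : M.WZ f ∈ unitary (K →L[ℂ] K) := by
  rw [Unitary.mem_iff, M.WZ_star, M.WZ_mul, M.WZ_mul]
  simp [M.WZ_zero, inner_self_eq_norm_sq_to_K, ← Complex.ofReal_pow]
theorem Z_WZ (f : E) : Commute M.Z (M.WZ f) := by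
  exact ((M.P_Z false).mul_right (M.Z_W f)).add_right ((M.P_Z true).mul_right (M.Z_W (-f)))
theorem X_WZ (f : E) : M.X * M.WZ f = M.WZ (-f) * M.X := by
  rw [WZ, WZ, mul_add, add_mul, ← mul_assoc, ← mul_assoc, M.X_P, M.X_P, neg_neg, add_comm]
  simp only [mul_assoc, (M.X_W _).eq, Bool.not_true, Bool.not_false]
theorem Y_WZ (f : E) : M.Y * M.WZ f = M.WZ (-f) * M.Y := by
  rw [Y, smul_mul_assoc, mul_smul_comm, mul_assoc, (M.Z_WZ f).eq, ← mul_assoc, M.X_WZ, mul_assoc]
theorem WZ_P (f : E) (b : Bool) :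
    M.WZ f * M.P b = M.P b * M.W (((spinSign b : ℝ) : ℂ) • f) := by
  have h : ∀ b b' (u : E), M.P b * M.W u * M.P b' = M.P b * M.P b' * M.W u := fun b b' u => by
    rw [mul_assoc, ← (M.P_W b' u).eq, mul_assoc]
  have h₁ : M.P false * M.P true = 0 := M.P_P_not false
  have h₂ : M.P true * M.P false = 0 := M.P_P_not true
  rw [WZ, add_mul, h, h]
  cases b <;> simp [h₁, h₂, M.P_P, spinSign]
theorem W_WZ (f g : E) : M.W f * M.WZ g = M.WZ g * M.W f * M.RZ (2 * (inner ℂ f g).im) := by
  have h : ∀ b, M.W f * M.WZ g * M.P b = M.WZ g * M.W f * M.RZ (2 * (inner ℂ f g).im) * M.P b :=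
    fun b => by
      rw [mul_assoc (M.WZ g * M.W f), M.RZ_P, mul_smul_comm, mul_assoc (M.WZ g), ← (M.P_W b f).eq,
        ← mul_assoc (M.WZ g), M.WZ_P, mul_assoc (M.W f), M.WZ_P, ← mul_assoc (M.W f),
        ← (M.P_W b f).eq, mul_assoc (M.P b), M.W_comm, mul_smul_comm, mul_assoc (M.P b),
        inner_smul_right]
      congr 2
      simp only [Complex.mul_im, Complex.ofReal_re, Complex.ofReal_im, zero_mul, add_zero]
      push_cast
      ring
  rw [← mul_one (M.W f * M.WZ g), ← mul_one (M.WZ g * M.W f * _), ← M.P_add, mul_add, mul_add, h, h]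
theorem W_WZ_commute {f g : E} (h : (inner ℂ f g).im = 0) : Commute (M.W f) (M.WZ g) := by
  have := M.W_WZ f g
  rw [h, mul_zero, M.RZ_zero, mul_one] at this
  exact this
theorem WZ_commute {T : K →L[ℂ] K} {f : E} (hZ : Commute M.Z T) (h1 : Commute (M.W f) T)
    (h2 : Commute (M.W (-f)) T) : Commute (M.WZ f) T := by
  exact ((M.P_commute hZ false).mul_left h1).add_left ((M.P_commute hZ true).mul_left h2)

end Model
end Crest.Agent.R339
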