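import Crest.Agent.R339.Api.A3

/-! # Row 339 API: WY, cos, sin (statements frozen) -/

set_option autoImplicit false
open MeasureTheory ProbabilityTheory Filter Topology Complex
open Crest.MathPhysics.SpinGlass

namespace Crest.Agent.R339
variable {E K : Type} [NormedAddCommGroup E] [InnerProductSpace ℂ E]
  [NormedAddCommGroup K] [InnerProductSpace ℂ K] [CompleteSpace K]

namespace Model
variable (M : Model E K)

theorem a4_cosW_commute {T : K →L[ℂ] K} {f : E} (h1 : Commute (M.W f) T)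
    (h2 : Commute (M.W (-f)) T) : Commute (M.cosW f) T :=
  (h2.add_left h1).smul_left _
theorem a4_sinW_commute {T : K →L[ℂ] K} {f : E} (h1 : Commute (M.W f) T)
    (h2 : Commute (M.W (-f)) T) : Commute (M.sinW f) T :=
  (h2.sub_left h1).smul_left _
theorem a4_cosW_neg (f : E) : M.cosW (-f) = M.cosW f := by
  simp only [cosW, neg_neg, add_comm]
theorem a4_sinW_neg (f : E) : M.sinW (-f) = - M.sinW f := by
  simp only [sinW, neg_neg]
  rw [← smul_neg, neg_sub]
theorem a4_RX_inv : M.RX (Real.pi / 4) * M.RX (-(Real.pi / 4)) = 1 := by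
  rw [← M.RX_add, add_neg_cancel, M.RX_zero]
theorem a4_RX_inv' : M.RX (-(Real.pi / 4)) * M.RX (Real.pi / 4) = 1 := by
  rw [← M.RX_add, neg_add_cancel, M.RX_zero]
theorem a4_conj_Z : M.RX (-(Real.pi / 4)) * M.Z * M.RX (Real.pi / 4) = M.Y := by
  have h := M.RX_conj_Z (Real.pi / 4)
  rw [M.RX_star, show 2 * (Real.pi / 4) = Real.pi / 2 by ring, Real.cos_pi_div_two,
    Real.sin_pi_div_two] at h
  simpa using h
theorem a4_norm_W (f : E) : ‖M.W f‖ ≤ 1 := by
  refine ContinuousLinearMap.opNorm_le_bound _ zero_le_one fun x => ?_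
  rw [one_mul]
  exact (ContinuousLinearMap.norm_map_of_mem_unitary (M.W_mem f) x).le

theorem WZ_eq (f : E) : M.WZ f = M.cosW f - I • (M.Z * M.sinW f) := by
  simp only [WZ, P, cosW, sinW, spinSign, smul_mul_assoc, mul_smul_comm, add_mul, mul_sub, one_mul,
    smul_smul]
  match_scalars <;> simp <;> field_simp <;> simp
theorem WY_eq (f : E) : M.WY f = M.cosW f - I • (M.Y * M.sinW f) := by
  have hc : Commute (M.RX (-(Real.pi / 4))) (M.cosW f) :=
    M.RX_commute (M.a4_cosW_commute (M.X_W f).symm (M.X_W (-f)).symm).symm _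
  have hs : Commute (M.RX (Real.pi / 4)) (M.sinW f) :=
    M.RX_commute (M.a4_sinW_commute (M.X_W f).symm (M.X_W (-f)).symm).symm _
  rw [WY, M.WZ_eq, mul_sub, sub_mul, hc.eq, mul_assoc (M.cosW f), M.a4_RX_inv', mul_one,
    mul_smul_comm, smul_mul_assoc, ← M.a4_conj_Z]
  congr 2
  simp only [mul_assoc, hs.eq]
theorem W_eq (f : E) : M.W f = M.cosW f - I • M.sinW f := by
  simp only [cosW, sinW, smul_smul]
  match_scalars <;> simp <;> field_simp <;> norm_num
theorem WY_zero : M.WY 0 = 1 := by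
  rw [WY, M.WZ_zero, mul_one, M.a4_RX_inv']
theorem WY_star (f : E) : star (M.WY f) = M.WY (-f) := by
  simp only [WY, star_mul, M.RX_star, M.WZ_star, neg_neg, mul_assoc]
theorem WY_mul (f g : E) :
    M.WY f * M.WY g = cexp (-(I * ((inner ℂ f g).im : ℂ))) • M.WY (f + g) := by
  have h : M.WY f * M.WY g = M.RX (-(Real.pi / 4)) * (M.WZ f * (M.RX (Real.pi / 4) *
      M.RX (-(Real.pi / 4))) * M.WZ g) * M.RX (Real.pi / 4) := by
    simp only [WY, mul_assoc]
  rw [h, M.a4_RX_inv, mul_one, M.WZ_mul, mul_smul_comm, smul_mul_assoc, WY]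
theorem WY_mem (f : E) : M.WY f ∈ unitary (K →L[ℂ] K) := by
  exact mul_mem (mul_mem (M.RX_mem _) (M.WZ_mem f)) (M.RX_mem _)
theorem Y_WY (f : E) : Commute M.Y (M.WY f) := by
  rw [M.WY_eq]
  refine Commute.sub_right (M.a4_cosW_commute (M.Y_W f).symm (M.Y_W (-f)).symm).symm ?_
  exact ((Commute.refl _).mul_right
    (M.a4_sinW_commute (M.Y_W f).symm (M.Y_W (-f)).symm).symm).smul_right _
theorem Z_WY (f : E) : M.Z * M.WY f = M.WY (-f) * M.Z := by
  have hc := (M.a4_cosW_commute (M.Z_W f).symm (M.Z_W (-f)).symm).eq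
  have hs := (M.a4_sinW_commute (M.Z_W f).symm (M.Z_W (-f)).symm).eq
  rw [M.WY_eq, M.WY_eq, M.a4_cosW_neg, M.a4_sinW_neg, mul_sub, sub_mul, hc, mul_smul_comm,
    smul_mul_assoc, mul_neg, neg_mul, mul_assoc, hs, ← mul_assoc, ← mul_assoc, M.Z_Y_eq, M.Y_Z_eq,
    neg_smul, neg_mul]
theorem X_WY (f : E) : M.X * M.WY f = M.WY (-f) * M.X := by
  have hc := (M.a4_cosW_commute (M.X_W f).symm (M.X_W (-f)).symm).eq
  have hs := (M.a4_sinW_commute (M.X_W f).symm (M.X_W (-f)).symm).eq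
  rw [M.WY_eq, M.WY_eq, M.a4_cosW_neg, M.a4_sinW_neg, mul_sub, sub_mul, hc, mul_smul_comm,
    smul_mul_assoc, mul_neg, neg_mul, mul_assoc, hs, ← mul_assoc, ← mul_assoc, M.X_Y_eq, M.Y_X_eq,
    neg_smul, neg_mul, neg_neg]
theorem W_WY_commute {f g : E} (h : (inner ℂ f g).im = 0) : Commute (M.W f) (M.WY g) := by
  exact ((M.RX_commute (M.X_W f) _).symm.mul_right (M.W_WZ_commute h)).mul_right
    (M.RX_commute (M.X_W f) _).symm
theorem cosW_star (f : E) : star (M.cosW f) = M.cosW f := by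
  simp only [cosW, star_smul, star_add, M.W_star, neg_neg]
  rw [add_comm]
  simp
theorem sinW_star (f : E) : star (M.sinW f) = M.sinW f := by
  simp only [sinW, star_smul, star_sub, M.W_star, neg_neg]
  rw [← neg_sub, smul_neg, ← neg_smul]
  congr 1
  simp
theorem cosW_neg (f : E) : M.cosW (-f) = M.cosW f := by
  exact M.a4_cosW_neg f
theorem sinW_neg (f : E) : M.sinW (-f) = - M.sinW f := by
  exact M.a4_sinW_neg f
theorem norm_cosW (f : E) : ‖M.cosW f‖ ≤ 1 := by
  have h1 := M.a4_norm_W f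
  have h2 := M.a4_norm_W (-f)
  have h3 := norm_add_le (M.W (-f)) (M.W f)
  rw [cosW, norm_smul]
  have h4 : ‖(1 / 2 : ℂ)‖ = 1 / 2 := by simp
  rw [h4]
  linarith
theorem norm_sinW (f : E) : ‖M.sinW f‖ ≤ 1 := by
  have h1 := M.a4_norm_W f
  have h2 := M.a4_norm_W (-f)
  have h3 := norm_sub_le (M.W (-f)) (M.W f)
  rw [sinW, norm_smul]
  have h4 : ‖(1 / (2 * I) : ℂ)‖ = 1 / 2 := by simp
  rw [h4]
  linarith
theorem cosW_commute {T : K →L[ℂ] K} {f : E} (h1 : Commute (M.W f) T)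
    (h2 : Commute (M.W (-f)) T) : Commute (M.cosW f) T := by
  exact M.a4_cosW_commute h1 h2
theorem sinW_commute {T : K →L[ℂ] K} {f : E} (h1 : Commute (M.W f) T)
    (h2 : Commute (M.W (-f)) T) : Commute (M.sinW f) T := by
  exact M.a4_sinW_commute h1 h2
theorem sinW_add {f g : E} (h : (inner ℂ f g).im = 0) :
    M.sinW (f + g) = M.sinW f * M.cosW g + M.cosW f * M.sinW g := by
  have h' : (inner ℂ (-f) (-g)).im = 0 := by rw [inner_neg_neg]; exact h
  have e1 := M.W_add_of_im h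
  have e2 := M.W_add_of_im h'
  rw [← neg_add] at e2
  simp only [sinW, cosW, e1, e2, smul_mul_assoc, mul_smul_comm, add_mul, mul_add, sub_mul, mul_sub,
    smul_smul]
  match_scalars <;> simp <;> field_simp <;> norm_num
theorem cosW_add {f g : E} (h : (inner ℂ f g).im = 0) :
    M.cosW (f + g) = M.cosW f * M.cosW g - M.sinW f * M.sinW g := by
  have h' : (inner ℂ (-f) (-g)).im = 0 := by rw [inner_neg_neg]; exact h
  have e1 := M.W_add_of_im h
  have e2 := M.W_add_of_im h'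
  rw [← neg_add] at e2
  simp only [sinW, cosW, e1, e2, smul_mul_assoc, mul_smul_comm, add_mul, mul_add, sub_mul, mul_sub,
    smul_smul]
  match_scalars <;> simp <;> field_simp <;> norm_num
/-- the shift of a field by a `Z`-controlled displacement. -/
theorem WZ_conj_W (f g : E) :
    star (M.WZ g) * M.W f * M.WZ g = M.W f * M.RZ (2 * (inner ℂ f g).im) := by
  rw [mul_assoc, M.W_WZ, ← mul_assoc, ← mul_assoc, Unitary.star_mul_self_of_mem (M.WZ_mem g),
    one_mul]
theorem WZ_conj_sinW {f g : E} (h : 2 * (inner ℂ f g).im = Real.pi / 2) :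
    star (M.WZ g) * M.sinW f * M.WZ g = M.Z * M.cosW f := by
  have e1 := M.WZ_conj_W f g
  have e2 := M.WZ_conj_W (-f) g
  have h' : 2 * (inner ℂ (-f) g).im = -(Real.pi / 2) := by
    rw [inner_neg_left, neg_im, ← h]; ring
  rw [h, M.RZ_pi_div_two] at e1
  rw [h', ← M.RZ_star, M.RZ_pi_div_two, star_smul, M.Z_star] at e2
  simp only [sinW, cosW, smul_mul_assoc, mul_smul_comm, mul_sub, sub_mul, mul_add, e1, e2,
    (M.Z_W f).eq, (M.Z_W (-f)).eq]
  match_scalars <;> simp <;> field_simp <;> simp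
theorem WZ_conj_cosW {f g : E} (h : 2 * (inner ℂ f g).im = Real.pi / 2) :
    star (M.WZ g) * M.cosW f * M.WZ g = -(M.Z * M.sinW f) := by
  have e1 := M.WZ_conj_W f g
  have e2 := M.WZ_conj_W (-f) g
  have h' : 2 * (inner ℂ (-f) g).im = -(Real.pi / 2) := by
    rw [inner_neg_left, neg_im, ← h]; ring
  rw [h, M.RZ_pi_div_two] at e1
  rw [h', ← M.RZ_star, M.RZ_pi_div_two, star_smul, M.Z_star] at e2
  simp only [sinW, cosW, smul_mul_assoc, mul_smul_comm, mul_sub, add_mul, mul_add, e1, e2,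
    (M.Z_W f).eq, (M.Z_W (-f)).eq]
  match_scalars <;> simp <;> field_simp <;> simp

end Model
end Crest.Agent.R339
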