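import Crest.Agent.R339.Api.A4

/-! # Row 339 API: vacuum and continuity (statements frozen) -/

set_option autoImplicit false
open MeasureTheory ProbabilityTheory Filter Topology Complex
open Crest.MathPhysics.SpinGlass

namespace Crest.Agent.R339
variable {E K : Type} [NormedAddCommGroup E] [InnerProductSpace ℂ E]
  [NormedAddCommGroup K] [InnerProductSpace ℂ K] [CompleteSpace K]

namespace Model
variable (M : Model E K)

theorem inner_W_W (f g : E) : inner ℂ (M.W f M.Ω) (M.W g M.Ω) =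
    cexp (inner ℂ f g - (‖f‖ : ℂ) ^ 2 / 2 - (‖g‖ : ℂ) ^ 2 / 2) := by
  have h1 : inner ℂ (M.W f M.Ω) (M.W g M.Ω) = inner ℂ M.Ω ((M.W (-f) * M.W g) M.Ω) := by
    rw [← M.W_star, mul_apply_eq_comp, inner_star_right]
  rw [h1, M.W_mul, _root_.smul_apply, inner_smul_right, M.vac, ← Complex.exp_add]
  congr 1
  have h2 : ‖-f + g‖ ^ 2 = ‖f‖ ^ 2 - 2 * (inner ℂ f g).re + ‖g‖ ^ 2 := by
    rw [neg_add_eq_sub, norm_sub_rev]
    exact norm_sub_sq (𝕜 := ℂ) f g
  have h3 : ((‖-f + g‖ : ℝ) : ℂ) ^ 2 =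
      (‖f‖ : ℂ) ^ 2 - 2 * ((inner ℂ f g).re : ℂ) + (‖g‖ : ℂ) ^ 2 := by
    exact_mod_cast h2
  rw [h3, inner_neg_left, Complex.neg_im]
  conv_rhs => rw [← Complex.re_add_im (inner ℂ f g)]
  push_cast
  ring
theorem norm_inner_W_W (f g : E) :
    ‖inner ℂ (M.W f M.Ω) (M.W g M.Ω)‖ = Real.exp (-(‖f - g‖ ^ 2 / 2)) := by
  rw [M.inner_W_W, Complex.norm_exp]
  congr 1
  have h2 : ‖f - g‖ ^ 2 = ‖f‖ ^ 2 - 2 * (inner ℂ f g).re + ‖g‖ ^ 2 := norm_sub_sq (𝕜 := ℂ) f g
  rw [h2]
  have e : inner ℂ f g - (‖f‖ : ℂ) ^ 2 / 2 - (‖g‖ : ℂ) ^ 2 / 2 =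
      inner ℂ f g - ((‖f‖ ^ 2 / 2 + ‖g‖ ^ 2 / 2 : ℝ) : ℂ) := by
    push_cast
    ring
  rw [e, Complex.sub_re, Complex.ofReal_re]
  ring
theorem X_WΩ (f : E) : M.X (M.W f M.Ω) = M.W f M.Ω := by
  rw [← mul_apply_eq_comp, (M.X_W f).eq, mul_apply_eq_comp, M.X_Ω]
theorem inner_Ω_cosW (f : E) : inner ℂ M.Ω (M.cosW f M.Ω) = cexp (-((‖f‖ : ℂ) ^ 2 / 2)) := by
  rw [cosW, _root_.smul_apply, _root_.add_apply, inner_smul_right,
    inner_add_right, M.vac, M.vac, norm_neg]
  ring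
theorem inner_Ω_sinW (f : E) : inner ℂ M.Ω (M.sinW f M.Ω) = 0 := by
  rw [sinW, _root_.smul_apply, _root_.sub_apply, inner_smul_right,
    inner_sub_right, M.vac, M.vac, norm_neg]
  ring
theorem ι_sinW (f g : E) :
    inner ℂ (M.ι f) (M.sinW g M.Ω) = inner ℂ f g * cexp (-((‖g‖ : ℂ) ^ 2 / 2)) := by
  rw [sinW, _root_.smul_apply, _root_.sub_apply, inner_smul_right,
    inner_sub_right, M.ι_W, M.ι_W, norm_neg, inner_neg_right]
  have hI : (I : ℂ) ≠ 0 := Complex.I_ne_zero
  field_simp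
  ring
theorem tame_Ω : M.Tame M.Ω 1 := by
  intro f
  have h1 : ‖M.W f M.Ω - M.Ω‖ ^ 2 ≤ (1 * ‖f‖) ^ 2 := by
    rw [norm_sub_rev, norm_sub_sq (𝕜 := ℂ), unit_norm (M.W_mem f), M.norm_Ω, M.vac]
    have e : cexp (-((‖f‖ : ℂ) ^ 2 / 2)) = ((Real.exp (-(‖f‖ ^ 2 / 2)) : ℝ) : ℂ) := by
      push_cast
      rfl
    rw [e]
    have h2 := Real.add_one_le_exp (-(‖f‖ ^ 2 / 2))
    simp only [RCLike.re_to_complex, Complex.ofReal_re]
    nlinarith
  exact (pow_le_pow_iff_left₀ (norm_nonneg _) (by positivity) two_ne_zero).1 h1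
theorem a5_continuous_WΩ : Continuous fun f => M.W f M.Ω := by
  refine continuous_iff_continuousAt.2 fun g => ?_
  rw [ContinuousAt, tendsto_iff_norm_sub_tendsto_zero]
  have hb : ∀ f, ‖M.W f M.Ω - M.W g M.Ω‖ = Real.sqrt (2 - 2 *
      (cexp (inner ℂ f g - (‖f‖ : ℂ) ^ 2 / 2 - (‖g‖ : ℂ) ^ 2 / 2)).re) := by
    intro f
    rw [← Real.sqrt_sq (norm_nonneg (M.W f M.Ω - M.W g M.Ω)), norm_sub_sq (𝕜 := ℂ),
      unit_norm (M.W_mem f), unit_norm (M.W_mem g), M.norm_Ω, M.inner_W_W]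
    congr 1
    simp only [RCLike.re_to_complex]
    ring
  have hc : Continuous fun f : E => Real.sqrt (2 - 2 *
      (cexp (inner ℂ f g - (‖f‖ : ℂ) ^ 2 / 2 - (‖g‖ : ℂ) ^ 2 / 2)).re) := by
    fun_prop
  have h0 := hc.tendsto g
  rw [← hb g, sub_self, norm_zero] at h0
  exact h0.congr fun f => (hb f).symm
theorem a5_continuous_WW (g : E) : Continuous fun f => M.W f (M.W g M.Ω) := by
  have e : (fun f => M.W f (M.W g M.Ω)) =
      fun f => cexp (-(I * ((inner ℂ f g).im : ℂ))) • M.W (f + g) M.Ω := by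
    funext f
    rw [← mul_apply_eq_comp, M.W_mul, _root_.smul_apply]
  rw [e]
  refine Continuous.smul (by fun_prop) ?_
  exact M.a5_continuous_WΩ.comp (continuous_id.add continuous_const)
theorem continuous_W (x : K) : Continuous fun f => M.W f x := by
  let S : Submodule ℂ K :=
    { carrier := {x | Continuous fun f => M.W f x}
      add_mem' := fun {a b} ha hb => by
        have := Continuous.add ha hb
        exact this.congr fun f => (map_add (M.W f) a b).symm
      zero_mem' := (continuous_const (y := (0 : K))).congr fun f => (map_zero (M.W f)).symm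
      smul_mem' := fun c a ha => by
        have := Continuous.const_smul ha c
        exact this.congr fun f => (map_smul (M.W f) c a).symm }
  have hcl : IsClosed (S : Set K) := by
    refine isClosed_of_closure_subset fun y hy => ?_
    refine continuous_of_uniform_approx_of_continuous fun u hu => ?_
    obtain ⟨ε, hε, hεu⟩ := Metric.mem_uniformity_dist.1 hu
    obtain ⟨z, hz, hzy⟩ := Metric.mem_closure_iff.1 hy ε hε
    refine ⟨fun f => M.W f z, hz, fun f => hεu ?_⟩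
    rw [dist_eq_norm, ← map_sub, unit_norm (M.W_mem f), ← dist_eq_norm]
    exact hzy
  have hle : Submodule.span ℂ
      (Set.range (fun f => M.W f M.Ω) ∪ Set.range (fun f => M.Z (M.W f M.Ω))) ≤ S := by
    refine Submodule.span_le.2 ?_
    rintro y (⟨g, rfl⟩ | ⟨g, rfl⟩)
    · exact M.a5_continuous_WW g
    · have e : (fun f => M.W f (M.Z (M.W g M.Ω))) = fun f => M.Z (M.W f (M.W g M.Ω)) := by
        funext f
        rw [← mul_apply_eq_comp, ← (M.Z_W f).eq, mul_apply_eq_comp]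
      change Continuous fun f => M.W f (M.Z (M.W g M.Ω))
      rw [e]
      exact M.Z.continuous.comp (M.a5_continuous_WW g)
  have htop := Submodule.topologicalClosure_minimal _ hle hcl
  rw [M.dense] at htop
  exact htop Submodule.mem_top
theorem continuous_W₂ : Continuous fun p : E × K => M.W p.1 p.2 := by
  refine continuous_iff_continuousAt.2 fun q => ?_
  rw [ContinuousAt, tendsto_iff_norm_sub_tendsto_zero]
  have hb : ∀ p : E × K, ‖M.W p.1 p.2 - M.W q.1 q.2‖ ≤
      ‖p.2 - q.2‖ + ‖M.W p.1 q.2 - M.W q.1 q.2‖ := by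
    intro p
    calc ‖M.W p.1 p.2 - M.W q.1 q.2‖
        = ‖M.W p.1 (p.2 - q.2) + (M.W p.1 q.2 - M.W q.1 q.2)‖ := by
          rw [map_sub, sub_add_sub_cancel]
      _ ≤ ‖M.W p.1 (p.2 - q.2)‖ + ‖M.W p.1 q.2 - M.W q.1 q.2‖ := norm_add_le _ _
      _ = _ := by rw [unit_norm (M.W_mem p.1)]
  have hc : Continuous fun p : E × K => ‖p.2 - q.2‖ + ‖M.W p.1 q.2 - M.W q.1 q.2‖ := by
    have := (M.continuous_W q.2).comp (continuous_fst : Continuous fun p : E × K => p.1)
    exact (continuous_snd.sub continuous_const).norm.add (this.sub continuous_const).norm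
  have h0 := hc.tendsto q
  rw [sub_self, sub_self, norm_zero, add_zero] at h0
  exact squeeze_zero (fun p => norm_nonneg _) hb h0
theorem continuous_WZ₂ : Continuous fun p : E × K => M.WZ p.1 p.2 := by
  have h1 := (M.P false).continuous.comp M.continuous_W₂
  have h2 := (M.P true).continuous.comp (M.continuous_W₂.comp
    (continuous_fst.neg.prodMk continuous_snd : Continuous fun p : E × K => (-p.1, p.2)))
  exact h1.add h2
theorem continuous_WY₂ : Continuous fun p : E × K => M.WY p.1 p.2 := by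
  have h1 := (M.RX (-(Real.pi / 4))).continuous.comp (M.continuous_WZ₂.comp
    (continuous_fst.prodMk ((M.RX (Real.pi / 4)).continuous.comp continuous_snd) :
      Continuous fun p : E × K => (p.1, M.RX (Real.pi / 4) p.2)))
  exact h1

end Model
end Crest.Agent.R339
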