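import Crest.Agent.R339.Api.A5

/-! # Row 339 API: tame vectors (statements frozen) -/

set_option autoImplicit false
open MeasureTheory ProbabilityTheory Filter Topology Complex
open Crest.MathPhysics.SpinGlass

namespace Crest.Agent.R339
variable {E K : Type} [NormedAddCommGroup E] [InnerProductSpace ℂ E]
  [NormedAddCommGroup K] [InnerProductSpace ℂ K] [CompleteSpace K]

namespace Model
variable (M : Model E K)

omit [CompleteSpace K] in
theorem a6_im (f g : E) : |(inner ℂ f g : ℂ).im| ≤ ‖f‖ * ‖g‖ :=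
  (Complex.abs_im_le_norm _).trans (norm_inner_le_norm f g)

theorem a6_exp (t : ℝ) : ‖cexp (-(I * (t : ℂ))) - 1‖ ≤ |t| := by
  have h := Real.norm_exp_I_mul_ofReal_sub_one_le (x := -t)
  rw [Real.norm_eq_abs, abs_neg] at h
  convert h using 3
  push_cast; ring

theorem a6_exp_norm (t : ℝ) : ‖cexp (-(I * (t : ℂ)))‖ = 1 := by
  have h := Complex.norm_exp_I_mul_ofReal (-t)
  convert h using 3
  push_cast; ring

theorem a6_neg (f : E) (x : K) : ‖M.W (-f) x - x‖ = ‖M.W f x - x‖ := by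
  rw [← unit_norm (M.W_mem f) (M.W (-f) x - x), map_sub, ← M.W_star,
    unit_apply_star (M.W_mem f), norm_sub_rev]

omit [CompleteSpace K] in
theorem a6_contr {T : K →L[ℂ] K} (hn : ‖T‖ ≤ 1) (x : K) : ‖T x‖ ≤ ‖x‖ :=
  (T.le_opNorm x).trans (mul_le_of_le_one_left (norm_nonneg _) hn)

theorem a6_RX_W (a : ℝ) (f : E) : Commute (M.W f) (M.RX a) := (M.RX_commute (M.X_W f) a).symm

theorem Tame.mono {x : K} {C C' : ℝ} (h : M.Tame x C) (hC : C ≤ C') : M.Tame x C' := by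
  intro f
  exact (h f).trans (mul_le_mul_of_nonneg_right hC (norm_nonneg _))
theorem Tame.add {x y : K} {C C' : ℝ} (h : M.Tame x C) (h' : M.Tame y C') :
    M.Tame (x + y) (C + C') := by
  intro f
  have e : M.W f (x + y) - (x + y) = (M.W f x - x) + (M.W f y - y) := by
    rw [map_add]; abel
  rw [e, add_mul]
  exact (norm_add_le _ _).trans (add_le_add (h f) (h' f))
theorem Tame.smul {x : K} {C : ℝ} (h : M.Tame x C) (c : ℂ) : M.Tame (c • x) (‖c‖ * C) := by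
  intro f
  rw [map_smul, ← smul_sub, norm_smul, mul_assoc]
  exact mul_le_mul_of_nonneg_left (h f) (norm_nonneg _)
theorem Tame.of_commute {x : K} {C : ℝ} (h : M.Tame x C) {T : K →L[ℂ] K}
    (hT : ∀ f, Commute (M.W f) T) (hn : ‖T‖ ≤ 1) : M.Tame (T x) C := by
  intro f
  have e : M.W f (T x) - T x = T (M.W f x - x) := by
    rw [map_sub]
    congr 1
    exact congrArg (fun A : K →L[ℂ] K => A x) (hT f).eq
  rw [e]
  exact (a6_contr hn _).trans (h f)
theorem Tame.W {x : K} {C : ℝ} (h : M.Tame x C) (g : E) :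
    M.Tame (M.W g x) (C + 2 * ‖g‖ * ‖x‖) := by
  intro f
  have hc : cexp (-(2 * I * ((inner ℂ f g : ℂ).im : ℂ))) =
      cexp (-(I * ((2 * (inner ℂ f g : ℂ).im : ℝ) : ℂ))) := by
    congr 1; push_cast; ring
  have e1 : M.W f (M.W g x) =
      cexp (-(I * ((2 * (inner ℂ f g : ℂ).im : ℝ) : ℂ))) • M.W g (M.W f x) := by
    rw [← hc]
    exact congrArg (fun A : K →L[ℂ] K => A x) (M.W_comm f g)
  set c := cexp (-(I * ((2 * (inner ℂ f g : ℂ).im : ℝ) : ℂ))) with hcdef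
  have e : M.W f (M.W g x) - M.W g x = M.W g (c • (M.W f x - x) + (c - 1) • x) := by
    rw [e1, map_add, map_smul, map_smul, map_sub, smul_sub, sub_smul, one_smul]; abel
  have h1 : ‖c‖ = 1 := a6_exp_norm _
  have h2 : ‖c - 1‖ ≤ 2 * (‖f‖ * ‖g‖) := by
    refine (a6_exp _).trans ?_
    rw [abs_mul, abs_two]
    exact mul_le_mul_of_nonneg_left (a6_im f g) zero_le_two
  rw [e, unit_norm (M.W_mem g)]
  refine (norm_add_le _ _).trans ?_
  rw [norm_smul, norm_smul, h1, one_mul]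
  have h3 := mul_le_mul_of_nonneg_right h2 (norm_nonneg x)
  have h4 := h f
  nlinarith
theorem Tame.WZ {x : K} {C : ℝ} (h : M.Tame x C) (g : E) :
    M.Tame (M.WZ g x) (C + 2 * ‖g‖ * ‖x‖) := by
  intro f
  set a : ℝ := 2 * (inner ℂ f g : ℂ).im with ha
  have e1 : M.W f (M.WZ g x) = M.WZ g (M.W f (M.RZ a x)) :=
    congrArg (fun A : K →L[ℂ] K => A x) (M.W_WZ f g)
  have e : M.W f (M.WZ g x) - M.WZ g x =
      M.WZ g ((M.W f x - x) + M.W f ((M.RZ a - 1) x)) := by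
    rw [e1, ← map_sub]
    congr 1
    rw [ContinuousLinearMap.sub_apply, map_sub, ContinuousLinearMap.one_apply]; abel
  have h2 : ‖M.RZ a - 1‖ ≤ 2 * (‖f‖ * ‖g‖) := by
    refine (M.norm_RZ_sub_one a).trans ?_
    rw [ha, abs_mul, abs_two]
    exact mul_le_mul_of_nonneg_left (a6_im f g) zero_le_two
  rw [e, unit_norm (M.WZ_mem g)]
  refine (norm_add_le _ _).trans ?_
  rw [unit_norm (M.W_mem f)]
  have h3 := ((M.RZ a - 1).le_opNorm x).trans (mul_le_mul_of_nonneg_right h2 (norm_nonneg x))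
  have h4 := h f
  nlinarith
theorem Tame.WY {x : K} {C : ℝ} (h : M.Tame x C) (g : E) :
    M.Tame (M.WY g x) (C + 2 * ‖g‖ * ‖x‖) := by
  have h1 : M.Tame (M.RX (Real.pi / 4) x) C :=
    Tame.of_commute M h (M.a6_RX_W _) (unit_opnorm (M.RX_mem _))
  have h2 := Tame.WZ M h1 g
  rw [unit_norm (M.RX_mem _)] at h2
  exact Tame.of_commute M h2 (M.a6_RX_W _) (unit_opnorm (M.RX_mem (-(Real.pi / 4))))
/-- `‖WZ f x - x‖² ≤ ‖W f x - x‖² + ‖W (-f) x - x‖² = 2 ‖W f x - x‖²`. -/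
theorem norm_WZ_sub_le (f : E) (x : K) : ‖M.WZ f x - x‖ ≤ 2 * ‖M.W f x - x‖ := by
  have hx : x = M.P false x + M.P true x := by
    rw [← ContinuousLinearMap.add_apply, M.P_add, ContinuousLinearMap.one_apply]
  have e : M.WZ f x - x = M.P false (M.W f x - x) + M.P true (M.W (-f) x - x) := by
    have : M.WZ f x = M.P false (M.W f x) + M.P true (M.W (-f) x) := rfl
    rw [this, map_sub, map_sub]
    conv_lhs => rw [hx]
    rw [← hx]
    nth_rewrite 3 [hx]
    abel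
  rw [e]
  refine (norm_add_le _ _).trans ?_
  have h1 := a6_contr (M.norm_P false) (M.W f x - x)
  have h2 := a6_contr (M.norm_P true) (M.W (-f) x - x)
  rw [M.a6_neg] at h2
  linarith
theorem norm_WY_sub_le (f : E) (x : K) : ‖M.WY f x - x‖ ≤ 2 * ‖M.W f x - x‖ := by
  set y := M.RX (Real.pi / 4) x with hy
  have hx : M.RX (-(Real.pi / 4)) y = x := by
    rw [← M.RX_star, hy, unit_star_apply (M.RX_mem _)]
  have e : M.WY f x - x = M.RX (-(Real.pi / 4)) (M.WZ f y - y) := by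
    rw [map_sub, hx]; rfl
  have e2 : M.W f y - y = M.RX (Real.pi / 4) (M.W f x - x) := by
    rw [map_sub, hy]
    congr 1
    exact congrArg (fun A : K →L[ℂ] K => A x) (M.a6_RX_W (Real.pi / 4) f).eq
  rw [e, unit_norm (M.RX_mem _)]
  refine (M.norm_WZ_sub_le f y).trans ?_
  rw [e2, unit_norm (M.RX_mem _)]
theorem norm_cosW_sub_le (f : E) (x : K) : ‖M.cosW f x - x‖ ≤ ‖M.W f x - x‖ := by
  have e : M.cosW f x - x = (1 / 2 : ℂ) • ((M.W (-f) x - x) + (M.W f x - x)) := by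
    have : M.cosW f x = (1 / 2 : ℂ) • (M.W (-f) x + M.W f x) := rfl
    rw [this]; module
  rw [e, norm_smul]
  have h1 := norm_add_le (M.W (-f) x - x) (M.W f x - x)
  rw [M.a6_neg] at h1
  have h2 : ‖(1 / 2 : ℂ)‖ = 1 / 2 := by simp
  rw [h2]; linarith
theorem norm_sinW_le (f : E) (x : K) : ‖M.sinW f x‖ ≤ ‖M.W f x - x‖ := by
  have e : M.sinW f x = (1 / (2 * I) : ℂ) • ((M.W (-f) x - x) - (M.W f x - x)) := by
    have : M.sinW f x = (1 / (2 * I) : ℂ) • (M.W (-f) x - M.W f x) := rfl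
    rw [this, sub_sub_sub_cancel_right]
  rw [e, norm_smul]
  have h1 := norm_sub_le (M.W (-f) x - x) (M.W f x - x)
  rw [M.a6_neg] at h1
  have h2 : ‖(1 / (2 * I) : ℂ)‖ = 1 / 2 := by simp
  rw [h2]; linarith
theorem Tame.W_lip {x : K} {C : ℝ} (h : M.Tame x C) (f g : E) :
    ‖M.W f x - M.W g x‖ ≤ ‖f - g‖ * (C + ‖g‖ * ‖x‖) := by
  set c := cexp (-(I * ((inner ℂ g (f - g) : ℂ).im : ℂ))) with hc
  have e1 : M.W g (M.W (f - g) x) = c • M.W f x := by
    have := congrArg (fun A : K →L[ℂ] K => A x) (M.W_mul g (f - g))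
    rwa [add_sub_cancel] at this
  have h1 : ‖c‖ = 1 := a6_exp_norm _
  have h2 : ‖c - 1‖ ≤ ‖g‖ * ‖f - g‖ := (a6_exp _).trans (a6_im _ _)
  have e : c • (M.W f x - M.W g x) = M.W g ((M.W (f - g) x - x) - (c - 1) • x) := by
    rw [map_sub, map_sub, map_smul, e1, smul_sub, sub_smul, one_smul]; abel
  have e2 : ‖M.W f x - M.W g x‖ = ‖(M.W (f - g) x - x) - (c - 1) • x‖ := by
    rw [← unit_norm (M.W_mem g) (_ - (c - 1) • x), ← e, norm_smul, h1, one_mul]
  rw [e2]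
  refine (norm_sub_le _ _).trans ?_
  rw [norm_smul]
  have h3 := mul_le_mul_of_nonneg_right h2 (norm_nonneg x)
  have h4 := h (f - g)
  nlinarith
theorem Tame.WZ_lip {x : K} {C : ℝ} (h : M.Tame x C) (f g : E) :
    ‖M.WZ f x - M.WZ g x‖ ≤ ‖f - g‖ * (2 * C + ‖g‖ * ‖x‖) := by
  set c := cexp (-(I * ((inner ℂ g (f - g) : ℂ).im : ℂ))) with hc
  have e1 : M.WZ g (M.WZ (f - g) x) = c • M.WZ f x := by
    have := congrArg (fun A : K →L[ℂ] K => A x) (M.WZ_mul g (f - g))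
    rwa [add_sub_cancel] at this
  have h1 : ‖c‖ = 1 := a6_exp_norm _
  have h2 : ‖c - 1‖ ≤ ‖g‖ * ‖f - g‖ := (a6_exp _).trans (a6_im _ _)
  have e : c • (M.WZ f x - M.WZ g x) = M.WZ g ((M.WZ (f - g) x - x) - (c - 1) • x) := by
    rw [map_sub, map_sub, map_smul, e1, smul_sub, sub_smul, one_smul]; abel
  have e2 : ‖M.WZ f x - M.WZ g x‖ = ‖(M.WZ (f - g) x - x) - (c - 1) • x‖ := by
    rw [← unit_norm (M.WZ_mem g) (_ - (c - 1) • x), ← e, norm_smul, h1, one_mul]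
  rw [e2]
  refine (norm_sub_le _ _).trans ?_
  rw [norm_smul]
  have h3 := mul_le_mul_of_nonneg_right h2 (norm_nonneg x)
  have h4 := h (f - g)
  have h5 := M.norm_WZ_sub_le (f - g) x
  nlinarith

end Model
end Crest.Agent.R339
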