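import Crest.Agent.R339.Api.A6

/-! # Row 339 API: atoms, Heisenberg vectors, plain reachability (statements frozen) -/

set_option autoImplicit false
set_option linter.deprecated false
open MeasureTheory ProbabilityTheory Filter Topology Complex
open Crest.MathPhysics.SpinGlass

namespace Crest.Agent.R339
variable {E K : Type} [NormedAddCommGroup E] [InnerProductSpace ℂ E]
  [NormedAddCommGroup K] [InnerProductSpace ℂ K] [CompleteSpace K]

namespace Model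
variable (M : Model E K)

theorem a7_X_Z_odd {x : K} (hx : M.X x = x) : M.X (M.Z x) = - M.Z x := by
  have h := congrArg (fun T : K →L[ℂ] K => T x) M.Z_X
  simp only [ContinuousLinearMap.mul_apply, ContinuousLinearMap.neg_apply, hx] at h
  rw [h, neg_neg]
  congr 1
  rw [← h]

theorem a7_inner_P {x y : K} (hx : M.X x = x) (hy : M.X y = y) (b : Bool) :
    inner ℂ x (M.P b y) = (1 / 2 : ℂ) * inner ℂ x y := by
  have h0 := M.inner_even_odd hx (M.a7_X_Z_odd hy)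
  simp [P, inner_smul_right, inner_add_right, h0]

theorem a7_prun_snoc (j : K →ₗᵢ[ℂ] E) (w : List (ℝ × ℝ)) (a : ℝ × ℝ) :
    M.prun j (w ++ [a]) = M.pstep j (M.prun j w) a := by
  simp [prun, List.foldl_append]

theorem a7_ind {j : K →ₗᵢ[ℂ] E} {p : (K →L[ℂ] K) → Prop} (h1 : p 1)
    (hs : ∀ V (θ : ℝ) (g : E), M.PReach j V → p V → p (M.RX θ * M.WZ g * V)) {V : K →L[ℂ] K}
    (h : M.PReach j V) : p V := by
  obtain ⟨w, rfl⟩ := h
  induction w using List.reverseRecOn with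
  | nil => exact h1
  | append_singleton w a ih =>
    rw [a7_prun_snoc]
    exact hs _ _ _ ⟨w, rfl⟩ ih

theorem norm_atom (b : Bool) (α : E) : ‖M.atom b α‖ ≤ 1 := by
  unfold atom
  refine ((M.P b).le_opNorm _).trans ?_
  rw [unit_norm (M.W_mem α), M.norm_Ω, mul_one]
  exact M.norm_P b
theorem tame_atom (b : Bool) (α : E) : M.Tame (M.atom b α) (1 + 2 * ‖α‖) := by
  have h := Tame.W M M.tame_Ω α
  rw [M.norm_Ω, mul_one] at h
  exact Tame.of_commute M h (fun f => (M.P_W b f).symm) (M.norm_P b)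
theorem atom_add (α : E) : M.atom false α + M.atom true α = M.W α M.Ω := by
  have h := congrArg (fun T : K →L[ℂ] K => T (M.W α M.Ω)) M.P_add
  simpa [atom] using h
theorem Z_atom (b : Bool) (α : E) :
    M.Z (M.atom b α) = ((spinSign b : ℝ) : ℂ) • M.atom b α := by
  exact congrArg (fun T : K →L[ℂ] K => T (M.W α M.Ω)) (M.Z_P b)
theorem X_atom (b : Bool) (α : E) : M.X (M.atom b α) = M.atom (!b) α := by
  have h := congrArg (fun T : K →L[ℂ] K => T (M.W α M.Ω)) (M.X_P b)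
  simp only [ContinuousLinearMap.mul_apply, M.X_WΩ] at h
  exact h
theorem WZ_atom (h : E) (b : Bool) (α : E) : M.WZ h (M.atom b α) =
    cexp (-(I * ((spinSign b * (inner ℂ h α).im : ℝ) : ℂ))) •
      M.atom b (α + ((spinSign b : ℝ) : ℂ) • h) := by
  have h1 := congrArg (fun T : K →L[ℂ] K => T (M.W α M.Ω)) (M.WZ_P h b)
  have h2 := congrArg (fun T : K →L[ℂ] K => T M.Ω) (M.W_mul (((spinSign b : ℝ) : ℂ) • h) α)
  simp only [ContinuousLinearMap.mul_apply, ContinuousLinearMap.smul_apply] at h1 h2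
  unfold atom
  rw [h1, h2, map_smul, add_comm, inner_smul_left]
  congr 5
  simp
theorem inner_atom (b b' : Bool) (α β : E) : inner ℂ (M.atom b α) (M.atom b' β) =
    if b = b' then (1 / 2 : ℂ) * cexp (inner ℂ α β - (‖α‖ : ℂ) ^ 2 / 2 - (‖β‖ : ℂ) ^ 2 / 2)
    else 0 := by
  unfold atom
  have h1 : inner ℂ (M.P b (M.W α M.Ω)) (M.P b' (M.W β M.Ω)) =
      inner ℂ (M.W α M.Ω) ((M.P b * M.P b') (M.W β M.Ω)) := by
    rw [ContinuousLinearMap.mul_apply, ← inner_star_left (M.P b), M.P_star]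
  rw [h1]
  split_ifs with hb
  · subst hb
    rw [M.P_P, M.a7_inner_P (M.X_WΩ α) (M.X_WΩ β), M.inner_W_W]
  · have : b' = !b := by cases b <;> cases b' <;> simp_all
    rw [this, M.P_P_not]
    simp
theorem norm_inner_atom (b b' : Bool) (α β : E) :
    ‖inner ℂ (M.atom b α) (M.atom b' β)‖ ≤ Real.exp (-(‖α - β‖ ^ 2 / 2)) := by
  rw [M.inner_atom]
  split_ifs with hb
  · rw [← M.inner_W_W, norm_mul, M.norm_inner_W_W]
    have := Real.exp_pos (-(‖α - β‖ ^ 2 / 2))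
    have h2 : ‖(1 / 2 : ℂ)‖ = 1 / 2 := by simp
    rw [h2]
    linarith
  · rw [norm_zero]
    exact (Real.exp_pos _).le
theorem ι_atom (d : E) (b : Bool) (α : E) : inner ℂ (M.ι d) (M.atom b α) =
    (1 / 2 : ℂ) * (-I * inner ℂ d α * cexp (-((‖α‖ : ℂ) ^ 2 / 2))) := by
  unfold atom
  rw [M.a7_inner_P (M.X_ι d) (M.X_WΩ α), M.ι_W]
theorem psi_one : M.psi 1 = M.Z M.Ω := by
  simp [psi]
theorem norm_psi {V : K →L[ℂ] K} (hV : V ∈ unitary (K →L[ℂ] K)) : ‖M.psi V‖ = 1 := by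
  unfold psi
  rw [unit_norm (Unitary.star_mem hV), unit_norm M.Z_mem, unit_norm hV, M.norm_Ω]
theorem psi_mul_of_commute {T : K →L[ℂ] K} (hT : T ∈ unitary (K →L[ℂ] K)) (h : Commute M.Z T)
    (V : K →L[ℂ] K) : M.psi (T * V) = M.psi V := by
  unfold psi
  have h1 := congrArg (fun S : K →L[ℂ] K => S (V M.Ω)) h.eq
  simp only [ContinuousLinearMap.mul_apply] at h1
  rw [star_mul, ContinuousLinearMap.mul_apply, ContinuousLinearMap.mul_apply, h1, unit_star_apply hT]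
theorem psi_smul {θ : ℂ} (hθ : ‖θ‖ = 1) (V : K →L[ℂ] K) : M.psi (θ • V) = M.psi V := by
  unfold psi
  have h1 : star θ * θ = 1 := by
    rw [mul_comm, Complex.star_def, Complex.mul_conj, Complex.normSq_eq_norm_sq, hθ]
    simp
  rw [star_smul, ContinuousLinearMap.smul_apply, ContinuousLinearMap.smul_apply, map_smul, map_smul, smul_smul, h1,
    one_smul]
theorem psi_of_commute {V : K →L[ℂ] K} (hV : V ∈ unitary (K →L[ℂ] K)) (h : Commute M.Z V) :
    M.psi V = M.Z M.Ω := by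
  rw [← M.psi_one, ← M.psi_mul_of_commute hV h 1, mul_one]
theorem psi_X_mul (c : ℂ) (hc : ‖c‖ = 1) (V : K →L[ℂ] K) : M.psi ((c • M.X) * V) = - M.psi V := by
  rw [smul_mul_assoc, M.psi_smul hc]
  unfold psi
  have h1 := congrArg (fun S : K →L[ℂ] K => S (V M.Ω)) M.Z_X
  have h2 := congrArg (fun S : K →L[ℂ] K => S (M.Z (V M.Ω))) M.X_X
  simp only [ContinuousLinearMap.mul_apply, ContinuousLinearMap.neg_apply, ContinuousLinearMap.one_apply] at h1 h2
  rw [star_mul, M.X_star, ContinuousLinearMap.mul_apply, ContinuousLinearMap.mul_apply, h1, map_neg, h2, map_neg]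
theorem psi_RX (a : ℝ) (V : K →L[ℂ] K) : M.psi (M.RX a * V) =
    ((Real.cos (2 * a) : ℝ) : ℂ) • M.psi V +
      ((Real.sin (2 * a) : ℝ) : ℂ) • star V (M.Y (V M.Ω)) := by
  unfold psi
  have h1 := congrArg (fun S : K →L[ℂ] K => S (V M.Ω)) (M.RX_conj_Z a)
  simp only [ContinuousLinearMap.mul_apply, ContinuousLinearMap.add_apply, ContinuousLinearMap.smul_apply] at h1
  rw [star_mul, ContinuousLinearMap.mul_apply, ContinuousLinearMap.mul_apply, h1, map_add, map_smul, map_smul]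
theorem psi_close {V U : K →L[ℂ] K} (hV : V ∈ unitary (K →L[ℂ] K))
    (hU : U ∈ unitary (K →L[ℂ] K)) :
    ‖M.psi V - M.psi U‖ ≤ ‖V M.Ω - U M.Ω‖ + ‖V (M.psi U) - U (M.psi U)‖ := by
  refine (sand_close hV hU M.Z M.Ω).trans (add_le_add ?_ le_rfl)
  exact mul_le_of_le_one_left (norm_nonneg _) (unit_opnorm M.Z_mem)

/-! ## A4: plain reachability -/

theorem preach_one (j : K →ₗᵢ[ℂ] E) : M.PReach j 1 := by
  exact ⟨[], rfl⟩
theorem PReach.cost {j : K →ₗᵢ[ℂ] E} {V : K →L[ℂ] K} (h : M.PReach j V) (γ : ℝ) :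
    M.PReach j (M.WZ (((γ : ℝ) : ℂ) • j (M.psi V)) * V) := by
  obtain ⟨w, rfl⟩ := h
  refine ⟨w ++ [(γ, 0)], ?_⟩
  rw [a7_prun_snoc, pstep, M.RX_zero, one_mul]
theorem PReach.rot {j : K →ₗᵢ[ℂ] E} {V : K →L[ℂ] K} (h : M.PReach j V) (θ : ℝ) :
    M.PReach j (M.RX θ * V) := by
  obtain ⟨w, rfl⟩ := h
  refine ⟨w ++ [(0, θ)], ?_⟩
  rw [a7_prun_snoc, pstep, Complex.ofReal_zero, zero_smul, M.WZ_zero, mul_one]
theorem PReach.mem {j : K →ₗᵢ[ℂ] E} {V : K →L[ℂ] K} (h : M.PReach j V) :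
    V ∈ unitary (K →L[ℂ] K) := by
  exact M.a7_ind (p := fun V => V ∈ unitary (K →L[ℂ] K)) (one_mem _)
    (fun V θ g _ hV => mul_mem (mul_mem (M.RX_mem θ) (M.WZ_mem g)) hV) h
theorem PReach.tame {j : K →ₗᵢ[ℂ] E} {V : K →L[ℂ] K} (h : M.PReach j V) :
    ∃ Γ : ℝ, 0 ≤ Γ ∧ ∀ x C, M.Tame x C → M.Tame (V x) (C + Γ * ‖x‖) ∧
      M.Tame (star V x) (C + Γ * ‖x‖) := by
  refine M.a7_ind (p := fun V => ∃ Γ : ℝ, 0 ≤ Γ ∧ ∀ x C, M.Tame x C → M.Tame (V x) (C + Γ * ‖x‖) ∧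
      M.Tame (star V x) (C + Γ * ‖x‖)) ⟨0, le_rfl, fun x C hx => by simpa using hx⟩ ?_ h
  rintro V θ g hV ⟨Γ, hΓ, ih⟩
  have hR : ∀ (a : ℝ) x C, M.Tame x C → M.Tame (M.RX a x) C := fun a x C hx =>
    Tame.of_commute M hx (fun f => (M.RX_commute (M.X_W f) a).symm) (unit_opnorm (M.RX_mem a))
  refine ⟨Γ + 2 * ‖g‖, by positivity, fun x C hx => ⟨?_, ?_⟩⟩
  · have h1 := hR θ _ _ (Tame.WZ M (ih x C hx).1 g)
    rw [unit_norm (PReach.mem M hV)] at h1
    rw [ContinuousLinearMap.mul_apply, ContinuousLinearMap.mul_apply]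
    exact Tame.mono M h1 (le_of_eq (by ring))
  · have h1 := (ih _ _ (Tame.WZ M (hR (-θ) x C hx) (-g))).2
    rw [unit_norm (M.WZ_mem _), unit_norm (M.RX_mem _), norm_neg] at h1
    rw [star_mul, star_mul, M.RX_star, M.WZ_star, ContinuousLinearMap.mul_apply, ContinuousLinearMap.mul_apply]
    exact Tame.mono M h1 (le_of_eq (by ring))
theorem En0_lip (j : K →ₗᵢ[ℂ] E) (x y : K) :
    |(inner ℂ x (M.ι (j x))).re - (inner ℂ y (M.ι (j y))).re| ≤ (‖x‖ + ‖y‖) * ‖x - y‖ := by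
  have h1 : inner ℂ x (M.ι (j x)) - inner ℂ y (M.ι (j y)) =
      inner ℂ x (M.ι (j (x - y))) + inner ℂ (x - y) (M.ι (j y)) := by
    rw [map_sub, map_sub, inner_sub_right, inner_sub_left]
    ring
  rw [← Complex.sub_re, h1]
  refine (Complex.abs_re_le_norm _).trans ((norm_add_le _ _).trans ?_)
  have h2 := norm_inner_le_norm (𝕜 := ℂ) x (M.ι (j (x - y)))
  have h3 := norm_inner_le_norm (𝕜 := ℂ) (x - y) (M.ι (j y))
  rw [LinearIsometry.norm_map, LinearIsometry.norm_map] at h2 h3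
  linarith

end Model
end Crest.Agent.R339
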