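import Crest.Agent.R339.Api

/-! # Row 339 API: directions (statements frozen) -/

set_option autoImplicit false
open MeasureTheory ProbabilityTheory Filter Topology Complex
open Crest.MathPhysics.SpinGlass

namespace Crest.Agent.R339
variable {E K : Type} [NormedAddCommGroup E] [InnerProductSpace ℂ E]
  [NormedAddCommGroup K] [InnerProductSpace ℂ K] [CompleteSpace K]

section JJ
variable {μ : Measure ℝ} (j : Lp K 2 μ →ₗᵢ[ℂ] E)

theorem JJ_of {y : ℝ → K} (hy : MemLp y 2 μ) : JJ j y = j (hy.toLp y) := dif_pos hy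
theorem JJ_of_not {y : ℝ → K} (hy : ¬ MemLp y 2 μ) : JJ j y = 0 := dif_neg hy
theorem JJ_inner {y y' : ℝ → K} (hy : MemLp y 2 μ) (hy' : MemLp y' 2 μ) :
    inner ℂ (JJ j y) (JJ j y') = ∫ u, inner ℂ (y u) (y' u) ∂μ := by
  rw [JJ_of j hy, JJ_of j hy', LinearIsometry.inner_map_map, L2.inner_def]
  refine integral_congr_ae ?_
  filter_upwards [hy.coeFn_toLp, hy'.coeFn_toLp] with u h1 h2
  rw [h1, h2]
theorem JJ_norm_sq {y : ℝ → K} (hy : MemLp y 2 μ) : ‖JJ j y‖ ^ 2 = ∫ u, ‖y u‖ ^ 2 ∂μ := by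
  have h := JJ_inner j hy hy
  simp only [inner_self_eq_norm_sq_to_K] at h
  have h2 : ((‖JJ j y‖ ^ 2 : ℝ) : ℂ) = ((∫ u, ‖y u‖ ^ 2 ∂μ : ℝ) : ℂ) := by
    rw [← integral_complex_ofReal]
    push_cast
    exact h
  exact_mod_cast h2
theorem JJ_zero : JJ j (fun _ => 0) = 0 := by
  have h : MemLp (fun _ : ℝ => (0 : K)) 2 μ := MemLp.zero
  rw [JJ_of j h]
  have : h.toLp _ = 0 := MemLp.toLp_zero h
  rw [this, map_zero]
theorem JJ_add {y y' : ℝ → K} (hy : MemLp y 2 μ) (hy' : MemLp y' 2 μ) :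
    JJ j (fun u => y u + y' u) = JJ j y + JJ j y' := by
  have h : MemLp (fun u => y u + y' u) 2 μ := hy.add hy'
  rw [JJ_of j h, JJ_of j hy, JJ_of j hy', ← map_add]
  rfl
theorem JJ_sub {y y' : ℝ → K} (hy : MemLp y 2 μ) (hy' : MemLp y' 2 μ) :
    JJ j (fun u => y u - y' u) = JJ j y - JJ j y' := by
  have h : MemLp (fun u => y u - y' u) 2 μ := hy.sub hy'
  rw [JJ_of j h, JJ_of j hy, JJ_of j hy', ← map_sub]
  rfl
theorem JJ_smul (c : ℂ) (y : ℝ → K) : JJ j (fun u => c • y u) = c • JJ j y := by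
  by_cases hy : MemLp y 2 μ
  · have h : MemLp (fun u => c • y u) 2 μ := hy.const_smul c
    rw [JJ_of j h, JJ_of j hy, ← map_smul]
    rfl
  · by_cases hc : c = 0
    · simp only [hc, zero_smul]
      exact JJ_zero j
    · have h : ¬ MemLp (fun u => c • y u) 2 μ := fun h => hy (by
        have h2 := h.const_smul c⁻¹
        have e : c⁻¹ • (fun u => c • y u) = y := by
          funext u
          simp only [Pi.smul_apply, smul_smul, inv_mul_cancel₀ hc, one_smul]
        rwa [e] at h2)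
      rw [JJ_of_not j h, JJ_of_not j hy, smul_zero]
theorem JJ_neg (y : ℝ → K) : JJ j (fun u => - y u) = - JJ j y := by
  have := JJ_smul j (-1) y
  simpa only [neg_smul, one_smul] using this
theorem JJ_sum {ι : Type} (s : Finset ι) (y : ι → ℝ → K) (hy : ∀ i ∈ s, MemLp (y i) 2 μ) :
    JJ j (fun u => ∑ i ∈ s, y i u) = ∑ i ∈ s, JJ j (y i) := by
  induction s using Finset.cons_induction with
  | empty => simpa using JJ_zero j
  | cons i s hi ih =>
    simp only [Finset.sum_cons]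
    have h1 := fun k hk => hy k (Finset.mem_cons_of_mem hk)
    rw [JJ_add j (hy i (Finset.mem_cons_self _ _)) (memLp_finsetSum s h1), ih h1]
theorem JJ_congr {y y' : ℝ → K} (h : y =ᵐ[μ] y') : JJ j y = JJ j y' := by
  by_cases hy : MemLp y 2 μ
  · have hy' : MemLp y' 2 μ := hy.ae_eq h
    rw [JJ_of j hy, JJ_of j hy', MemLp.toLp_congr hy hy' h]
  · rw [JJ_of_not j hy, JJ_of_not j fun hy' => hy (hy'.ae_eq h.symm)]
/-- a field bounded by `c` on `S` and vanishing off `S`. -/
theorem norm_JJ_le [IsFiniteMeasure μ] {y : ℝ → K} {S : Set ℝ} (hS : MeasurableSet S) {c : ℝ}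
    (hc : 0 ≤ c) (h1 : ∀ u ∈ S, ‖y u‖ ≤ c) (h0 : ∀ u ∉ S, y u = 0) :
    ‖JJ j y‖ ≤ c * Real.sqrt (μ.real S) := by
  by_cases hy : MemLp y 2 μ
  · have h2 : ‖JJ j y‖ ^ 2 ≤ (c * Real.sqrt (μ.real S)) ^ 2 := by
      rw [JJ_norm_sq j hy, mul_pow, Real.sq_sqrt measureReal_nonneg, mul_comm, ← smul_eq_mul,
        ← integral_indicator_const _ hS]
      refine integral_mono_of_nonneg (Eventually.of_forall fun u => sq_nonneg _)
        ((integrable_const _).indicator hS) (Eventually.of_forall fun u => ?_)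
      by_cases hu : u ∈ S
      · simp only [Set.indicator_of_mem hu]
        exact pow_le_pow_left₀ (norm_nonneg _) (h1 u hu) 2
      · simp [Set.indicator_of_notMem hu, h0 u hu]
    exact (pow_le_pow_iff_left₀ (norm_nonneg _) (by positivity) two_ne_zero).1 h2
  · rw [JJ_of_not j hy, norm_zero]
    positivity
theorem norm_JJ_indicator [IsFiniteMeasure μ] {y : ℝ → K} (hy : MemLp y 2 μ) {S : Set ℝ}
    (hS : MeasurableSet S) (h1 : ∀ u ∈ S, ‖y u‖ = 1) :
    ‖JJ j (S.indicator y)‖ = Real.sqrt (μ.real S) := by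
  have h2 : ‖JJ j (S.indicator y)‖ ^ 2 = μ.real S := by
    rw [JJ_norm_sq j (hy.indicator hS)]
    have e : (fun u => ‖S.indicator y u‖ ^ 2) = S.indicator fun _ => (1 : ℝ) := by
      funext u
      by_cases hu : u ∈ S
      · simp [Set.indicator_of_mem hu, h1 u hu]
      · simp [Set.indicator_of_notMem hu]
    rw [e, integral_indicator_const _ hS, smul_eq_mul, mul_one]
  rw [← h2, Real.sqrt_sq (norm_nonneg _)]
/-- disjoint supports are orthogonal (no integrability needed). -/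
theorem JJ_orth {y y' : ℝ → K} (h : ∀ u, y u = 0 ∨ y' u = 0) : inner ℂ (JJ j y) (JJ j y') = 0 := by
  by_cases hy : MemLp y 2 μ
  · by_cases hy' : MemLp y' 2 μ
    · rw [JJ_inner j hy hy']
      have e : (fun u => inner ℂ (y u) (y' u)) = fun _ => 0 := by
        funext u
        rcases h u with h | h <;> simp [h]
      rw [e, integral_zero]
    · rw [JJ_of_not j hy', inner_zero_right]
  · rw [JJ_of_not j hy, inner_zero_left]
theorem JJ_inner_const [IsFiniteMeasure μ] {S T : Set ℝ} (hS : MeasurableSet S)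
    (hT : MeasurableSet T) (x x' : K) :
    inner ℂ (JJ j (S.indicator fun _ => x)) (JJ j (T.indicator fun _ => x')) =
      ((μ.real (S ∩ T) : ℝ) : ℂ) * inner ℂ x x' := by
  rw [JJ_inner j ((memLp_const x).indicator hS) ((memLp_const x').indicator hT)]
  have e : (fun u => inner ℂ (S.indicator (fun _ => x) u) (T.indicator (fun _ => x') u)) =
      (S ∩ T).indicator fun _ => inner ℂ x x' := by
    funext u
    by_cases hu : u ∈ S <;> by_cases hu' : u ∈ T <;> simp [Set.indicator, hu, hu']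
  rw [e, integral_indicator_const _ (hS.inter hT), Complex.real_smul]
theorem Model.EnV_lip (M : Model E K) [IsProbabilityMeasure μ] {y y' : ℝ → K} (hy : MemLp y 2 μ)
    (hy' : MemLp y' 2 μ) :
    |M.EnV j y - M.EnV j y'| ≤ (‖JJ j y‖ + ‖JJ j y'‖) * ‖JJ j y - JJ j y'‖ := by
  have hn : ∀ x : K, ‖JJ j fun _ => x‖ = ‖x‖ := fun x => by
    have := JJ_norm_sq j (memLp_const x)
    rw [integral_const, probReal_univ, one_smul] at this
    exact (pow_left_inj₀ (norm_nonneg _) (norm_nonneg _) two_ne_zero).1 this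
  unfold Model.EnV
  rw [← JJ_inner j hy (memLp_const _), ← JJ_inner j hy' (memLp_const _), ← Complex.sub_re]
  refine (Complex.abs_re_le_norm _).trans ?_
  have h1 : ‖(JJ j fun _ => M.ι (JJ j y)) - JJ j fun _ => M.ι (JJ j y')‖ = ‖JJ j y - JJ j y'‖ := by
    rw [← JJ_sub j (memLp_const _) (memLp_const _), hn, ← map_sub, LinearIsometry.norm_map]
  have h2 : ‖JJ j fun _ => M.ι (JJ j y')‖ = ‖JJ j y'‖ := by rw [hn, LinearIsometry.norm_map]
  generalize (JJ j fun _ => M.ι (JJ j y)) = c at h1 ⊢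
  generalize (JJ j fun _ => M.ι (JJ j y')) = c' at h1 h2 ⊢
  have e : inner ℂ (JJ j y) c - inner ℂ (JJ j y') c' =
      inner ℂ (JJ j y) (c - c') + inner ℂ (JJ j y - JJ j y') c' := by
    rw [inner_sub_right, inner_sub_left]; ring
  rw [e]
  refine (norm_add_le _ _).trans ((add_le_add (norm_inner_le_norm _ _) (norm_inner_le_norm _ _)).trans ?_)
  rw [h1, h2]
  exact le_of_eq (by ring)
end JJ

end Crest.Agent.R339
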