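import Crest.Agent.R339.Api.B1

/-! # Row 339 API: simple configurations (statements frozen) -/

set_option autoImplicit false
open MeasureTheory ProbabilityTheory Filter Topology Complex
open Crest.MathPhysics.SpinGlass

namespace Crest.Agent.R339
variable {E K : Type} [NormedAddCommGroup E] [InnerProductSpace ℂ E]
  [NormedAddCommGroup K] [InnerProductSpace ℂ K] [CompleteSpace K]

instance : IsProbabilityMeasure mu0 := by
  constructor
  simp [mu0]
theorem mu0_Ico {a b : ℝ} (ha : 0 ≤ a) (hab : a ≤ b) (hb : b ≤ 1) :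
    mu0.real (Set.Ico a b) = b - a := by
  have h : Set.Ico a b ∩ Set.Ico (0 : ℝ) 1 = Set.Ico a b :=
    Set.inter_eq_left.2 (Set.Ico_subset_Ico ha hb)
  rw [mu0, measureReal_restrict_apply measurableSet_Ico, h, Real.volume_real_Ico_of_le hab]

/-- finitely many values, measurable fibres. -/
def Simple {α : Type} (V : ℝ → α) : Prop :=
  (Set.range V).Finite ∧ ∀ a, MeasurableSet (V ⁻¹' {a})

theorem Simple.const {α : Type} (a : α) : Simple fun _ : ℝ => a := by
  refine ⟨(Set.finite_singleton a).subset (by rintro _ ⟨u, rfl⟩; rfl), fun b => ?_⟩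
  by_cases h : a = b
  · simp [h]
  · simp [h]
theorem Simple.b2_pre {α : Type} {V : ℝ → α} (h : Simple V) (s : Set α) : MeasurableSet (V ⁻¹' s) := by
  have e : V ⁻¹' s = ⋃ a ∈ Set.range V ∩ s, V ⁻¹' {a} := by
    ext u
    simp only [Set.mem_preimage, Set.mem_iUnion, Set.mem_singleton_iff, exists_prop]
    exact ⟨fun hu => ⟨V u, ⟨⟨u, rfl⟩, hu⟩, rfl⟩, fun ⟨a, ha, hu⟩ => hu ▸ ha.2⟩
  rw [e]
  exact (h.1.inter_of_left s).measurableSet_biUnion fun a _ => h.2 a
theorem Simple.comp {α β : Type} {V : ℝ → α} (h : Simple V) (g : α → β) :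
    Simple fun u => g (V u) := by
  refine ⟨(h.1.image g).subset (by rintro _ ⟨u, rfl⟩; exact ⟨_, ⟨u, rfl⟩, rfl⟩), fun b => ?_⟩
  exact h.b2_pre (g ⁻¹' {b})
theorem Simple.comp₂ {α β γ : Type} {V : ℝ → α} {V' : ℝ → β} (h : Simple V) (h' : Simple V')
    (g : α → β → γ) : Simple fun u => g (V u) (V' u) := by
  have hp : Simple fun u => (V u, V' u) := by
    refine ⟨(h.1.prod h'.1).subset (by rintro _ ⟨u, rfl⟩; exact ⟨⟨u, rfl⟩, ⟨u, rfl⟩⟩), fun b => ?_⟩
    have e : (fun u => (V u, V' u)) ⁻¹' {b} = V ⁻¹' {b.1} ∩ V' ⁻¹' {b.2} := by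
      ext u; simp [Prod.ext_iff]
    rw [e]
    exact (h.2 _).inter (h'.2 _)
  exact hp.comp fun p => g p.1 p.2
theorem Simple.b2_mem {S : Set ℝ} (hS : MeasurableSet S) : Simple fun u => u ∈ S := by
  refine ⟨Set.toFinite _, fun p => ?_⟩
  by_cases hp : p
  · have e : (fun u => u ∈ S) ⁻¹' {p} = S := by ext u; simp [hp]
    rwa [e]
  · have e : (fun u => u ∈ S) ⁻¹' {p} = Sᶜ := by ext u; simp [hp]
    rw [e]; exact hS.compl
theorem Simple.indicator {α : Type} [Zero α] {V : ℝ → α} (h : Simple V) {S : Set ℝ}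
    (hS : MeasurableSet S) : Simple (S.indicator V) := by
  classical
  have := h.comp₂ (Simple.b2_mem hS) fun a p => if p then a else 0
  convert this using 2 with u
  simp [Set.indicator_apply]
theorem Simple.memLp {y : ℝ → K} (h : Simple y) (μ : Measure ℝ) [IsFiniteMeasure μ] :
    MemLp y 2 μ := by
  have hm : StronglyMeasurable y :=
    (SimpleFunc.mk y h.2 h.1).stronglyMeasurable
  obtain ⟨C, hC⟩ := (h.1.image fun x : K => ‖x‖).bddAbove
  exact MemLp.of_bound hm.aestronglyMeasurable C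
    (Eventually.of_forall fun u => hC ⟨_, ⟨u, rfl⟩, rfl⟩)
theorem Simple.measurableSet {α : Type} {V : ℝ → α} (h : Simple V) (p : α → Prop) :
    MeasurableSet {u | p (V u)} := by
  exact h.b2_pre {a | p a}
/-- a strict pointwise bound on a simple function has uniform slack. -/
theorem Simple.slack {g : ℝ → ℝ} (h : Simple g) (S : Set ℝ) {c : ℝ} (hc : ∀ u ∈ S, g u < c) :
    ∃ δ > (0 : ℝ), ∀ u ∈ S, g u + δ < c := by
  rcases S.eq_empty_or_nonempty with rfl | hS
  · exact ⟨1, one_pos, fun u hu => hu.elim⟩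
  obtain ⟨_, ⟨v, hv, rfl⟩, hm⟩ := Set.exists_max_image (g '' S) id
    (h.1.subset (Set.image_subset_range g S)) (hS.image g)
  refine ⟨(c - g v) / 2, by linarith [hc v hv], fun u hu => ?_⟩
  have h1 : g u ≤ g v := hm _ ⟨u, hu, rfl⟩
  linarith [hc v hv]

namespace Model
variable (M : Model E K)

theorem MGood.simple {j : Lp K 2 mu0 →ₗᵢ[ℂ] E} {V : ℝ → K →L[ℂ] K} (h : M.MGood j V) :
    Simple V := by
  induction h with
  | one => exact Simple.const _
  | cost V γ _ ih => exact ih.comp fun A => M.WZ (((γ : ℝ) : ℂ) • JJ j (M.psiL V)) * A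
  | rot V S θ _ hS _ _ ih =>
    exact ((Simple.const θ).indicator hS).comp₂ ih fun t A => M.RX t * A
theorem MGood.mem {j : Lp K 2 mu0 →ₗᵢ[ℂ] E} {V : ℝ → K →L[ℂ] K} (h : M.MGood j V) (u : ℝ) :
    V u ∈ unitary (K →L[ℂ] K) := by
  induction h with
  | one => exact one_mem _
  | cost V γ _ ih => exact mul_mem (M.WZ_mem _) ih
  | rot V S θ _ hS _ _ ih => exact mul_mem (M.RX_mem _) ih
theorem LGood.mem {j : Lp K 2 (gaussianReal 0 1) →ₗᵢ[ℂ] E} {V : ℝ → K →L[ℂ] K}
    (h : M.LGood j V) (l : ℝ) : V l ∈ unitary (K →L[ℂ] K) := by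
  induction h with
  | one => exact one_mem _
  | cost V γ _ ih => exact mul_mem (M.WZ_mem _) ih
  | rot V θ _ _ ih => exact mul_mem (M.RX_mem _) ih
  | zph V γ _ ih => exact mul_mem (M.RZ_mem _) ih
theorem LGood.continuous {j : Lp K 2 (gaussianReal 0 1) →ₗᵢ[ℂ] E} {V : ℝ → K →L[ℂ] K}
    (h : M.LGood j V) : Continuous V := by
  induction h with
  | one => exact continuous_const
  | cost V γ _ ih => exact continuous_const.mul ih
  | rot V θ _ _ ih => exact continuous_const.mul ih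
  | zph V γ _ ih => exact (M.continuous_RZ.comp (continuous_const.mul continuous_id)).mul ih
theorem LGood.memLp {j : Lp K 2 (gaussianReal 0 1) →ₗᵢ[ℂ] E} {V : ℝ → K →L[ℂ] K}
    (h : M.LGood j V) (A : K →L[ℂ] K) (x : K) :
    MemLp (fun l => star (V l) (A (V l x))) 2 (gaussianReal 0 1) := by
  have hc := LGood.continuous M h
  have hm : Continuous fun l => star (V l) (A (V l x)) :=
    hc.star.clm_apply (A.continuous.comp (hc.clm_apply continuous_const))
  refine MemLp.of_bound hm.aestronglyMeasurable (‖A‖ * ‖x‖) (Eventually.of_forall fun l => ?_)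
  have hl := LGood.mem M h l
  rw [unit_norm (Unitary.star_mem hl), ← unit_norm hl x]
  exact A.le_opNorm _
theorem LGood.half_le {j : Lp K 2 (gaussianReal 0 1) →ₗᵢ[ℂ] E} {V : ℝ → K →L[ℂ] K}
    (h : M.LGood j V) : 1 / 2 ≤ M.cL V := by
  induction h with
  | one =>
    have h1 : inner ℂ (M.Z M.Ω) (M.Z M.Ω) = 1 := by
      rw [unit_inner M.Z_mem, inner_self_eq_norm_sq_to_K, M.norm_Ω]; simp
    simp only [cL, M.psi_one, h1]
    norm_num
  | cost V γ _ ih =>
    have e : M.cL (M.costL j γ V) = M.cL V := by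
      simp only [cL, costL, M.psi_mul_of_commute (M.WZ_mem _) (M.Z_WZ _)]
    rwa [e]
  | rot V θ _ h _ => exact h
  | zph V γ _ ih =>
    have e : M.cL (fun l => M.RZ (γ * l) * V l) = M.cL V := by
      simp only [cL, M.psi_mul_of_commute (M.RZ_mem _) (M.RZ_commute (Commute.refl _) _).symm]
    rwa [e]

end Model

end Crest.Agent.R339
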