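import Crest.Agent.R339.Api.B2

/-! # Row 339 API: trigonometric operators (statements frozen) -/

set_option autoImplicit false
open MeasureTheory ProbabilityTheory Filter Topology Complex
open Crest.MathPhysics.SpinGlass

namespace Crest.Agent.R339
variable {E K : Type} [NormedAddCommGroup E] [InnerProductSpace ℂ E]
  [NormedAddCommGroup K] [InnerProductSpace ℂ K] [CompleteSpace K]

namespace Model
variable (M : Model E K)

/-- `Σ |c|`. -/
noncomputable def _root_.Crest.Agent.R339.l1 (P : List (ℝ × (ℕ → ℝ))) : ℝ :=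
  (P.map fun t => |t.1|).sum

theorem b3_nil (q : ℕ) (f : ℕ → E) : M.opS [] q f = 0 := rfl

theorem b3_cons (t : ℝ × (ℕ → ℝ)) (P : List (ℝ × (ℕ → ℝ))) (q : ℕ) (f : ℕ → E) :
    M.opS (t :: P) q f = ((t.1 : ℝ) : ℂ) • M.sinW (∑ i ∈ Finset.range (q + 1), ((t.2 i : ℝ) : ℂ) • f i)
      + M.opS P q f := by
  simp [opS]

theorem b3_sin_lip (f g : E) : ‖M.sinW f M.Ω - M.sinW g M.Ω‖ ≤ ‖f - g‖ * (1 + ‖g‖) := by
  have h1 := Tame.W_lip M M.tame_Ω f g
  have h2 := Tame.W_lip M M.tame_Ω (-f) (-g)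
  rw [M.norm_Ω, mul_one] at h1 h2
  rw [neg_sub_neg, norm_sub_rev g, norm_neg] at h2
  have e : M.sinW f M.Ω - M.sinW g M.Ω =
      (1 / (2 * I) : ℂ) • ((M.W (-f) M.Ω - M.W (-g) M.Ω) - (M.W f M.Ω - M.W g M.Ω)) := by
    simp only [sinW, smul_apply, sub_apply, ← smul_sub]
    congr 1
    abel
  have h3 : ‖(1 / (2 * I) : ℂ)‖ = 1 / 2 := by simp
  rw [e, norm_smul, h3]
  linarith [norm_sub_le (M.W (-f) M.Ω - M.W (-g) M.Ω) (M.W f M.Ω - M.W g M.Ω)]

theorem b3_norm_sum (a : ℕ → ℝ) (q : ℕ) {g : ℕ → E} {δ : ℝ} (h : ∀ i ≤ q, ‖g i‖ ≤ δ) :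
    ‖∑ i ∈ Finset.range (q + 1), ((a i : ℝ) : ℂ) • g i‖ ≤ (∑ i ∈ Finset.range (q + 1), |a i|) * δ := by
  rw [Finset.sum_mul]
  refine norm_sum_le_of_le _ fun i hi => ?_
  rw [norm_smul, norm_real, Real.norm_eq_abs]
  exact mul_le_mul_of_nonneg_left (h i (Nat.lt_succ_iff.mp (Finset.mem_range.mp hi))) (abs_nonneg _)

theorem opS_star (P : List (ℝ × (ℕ → ℝ))) (q : ℕ) (f : ℕ → E) :
    star (M.opS P q f) = M.opS P q f := by
  induction P with
  | nil => rw [b3_nil, star_zero]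
  | cons t P ih => rw [b3_cons, star_add, star_smul, sinW_star, ih, star_def, conj_ofReal]
theorem norm_opS (P : List (ℝ × (ℕ → ℝ))) (q : ℕ) (f : ℕ → E) : ‖M.opS P q f‖ ≤ l1 P := by
  induction P with
  | nil => simp [b3_nil, l1]
  | cons t P ih =>
    rw [b3_cons, l1, List.map_cons, List.sum_cons]
    refine (norm_add_le _ _).trans (add_le_add ?_ ih)
    rw [norm_smul, norm_real, Real.norm_eq_abs]
    exact mul_le_of_le_one_right (abs_nonneg _) (M.norm_sinW _)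
theorem opS_commute {T : K →L[ℂ] K} (P : List (ℝ × (ℕ → ℝ))) (q : ℕ) (f : ℕ → E)
    (h : ∀ i ≤ q, ∀ t : ℝ, Commute (M.W (((t : ℝ) : ℂ) • f i)) T) : Commute (M.opS P q f) T := by
  induction P with
  | nil => exact Commute.zero_left _
  | cons t P ih =>
    rw [b3_cons]
    refine Commute.add_left (Commute.smul_left (M.sinW_commute ?_ ?_) _) ih
    · exact M.commute_W_sum _ _ fun i hi => h i (Nat.lt_succ_iff.mp (Finset.mem_range.mp hi)) _
    · rw [← Finset.sum_neg_distrib]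
      refine M.commute_W_sum _ _ fun i hi => ?_
      rw [← neg_smul, ← ofReal_neg]
      exact h i (Nat.lt_succ_iff.mp (Finset.mem_range.mp hi)) _
theorem opS_congr (P : List (ℝ × (ℕ → ℝ))) (q : ℕ) {f f' : ℕ → E} (h : ∀ i ≤ q, f i = f' i) :
    M.opS P q f = M.opS P q f' := by
  unfold opS
  congr 2
  funext t
  rw [Finset.sum_congr rfl fun i hi => by rw [h i (Nat.lt_succ_iff.mp (Finset.mem_range.mp hi))]]
theorem X_opS_Ω (P : List (ℝ × (ℕ → ℝ))) (q : ℕ) (f : ℕ → E) :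
    M.X (M.opS P q f M.Ω) = M.opS P q f M.Ω := by
  have h := M.opS_commute P q f (T := M.X) fun i _ t => (M.X_W _).symm
  conv_rhs => rw [← M.X_Ω]
  exact (congrArg (fun A : K →L[ℂ] K => A M.Ω) h.eq).symm
/-- Lipschitz dependence on the directions, on a tame vector. -/
theorem opS_lip (P : List (ℝ × (ℕ → ℝ))) (q : ℕ) (R : ℝ) : ∃ C : ℝ, 0 ≤ C ∧ ∀ (f f' : ℕ → E)
    (δ : ℝ), (∀ i ≤ q, ‖f i‖ ≤ R ∧ ‖f' i‖ ≤ R ∧ ‖f i - f' i‖ ≤ δ) →
      ‖M.opS P q f M.Ω - M.opS P q f' M.Ω‖ ≤ C * δ := by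
  induction P with
  | nil => exact ⟨0, le_rfl, fun f f' δ _ => by simp [b3_nil]⟩
  | cons t P ih =>
    obtain ⟨C, hC, ih⟩ := ih
    set A := ∑ i ∈ Finset.range (q + 1), |t.2 i| with hA
    have hA0 : 0 ≤ A := Finset.sum_nonneg fun _ _ => abs_nonneg _
    refine ⟨|t.1| * (A * (1 + A * |R|)) + C, by positivity, fun f f' δ h => ?_⟩
    have hδ : 0 ≤ δ := (norm_nonneg _).trans (h 0 (Nat.zero_le _)).2.2
    have h1 := b3_norm_sum t.2 q (g := fun i => f i - f' i) fun i hi => (h i hi).2.2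
    have h2 := b3_norm_sum t.2 q (g := f') fun i hi => (h i hi).2.1.trans (le_abs_self R)
    simp only [smul_sub, Finset.sum_sub_distrib] at h1
    have h3 := (M.b3_sin_lip _ _).trans (mul_le_mul h1 (add_le_add_right h2 1) (by positivity) (by positivity))
    rw [b3_cons, b3_cons, add_apply, add_apply,
      smul_apply, smul_apply, add_sub_add_comm, ← smul_sub]
    refine (norm_add_le _ _).trans ?_
    rw [norm_smul, norm_real, Real.norm_eq_abs]
    nlinarith [mul_le_mul_of_nonneg_left h3 (abs_nonneg t.1), ih f f' δ h]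
theorem exists_isSig (j : Lp K 2 mu0 →ₗᵢ[ℂ] E) (η : ℝ) (P : ℕ → List (ℝ × (ℕ → ℝ))) :
    ∃ f, M.IsSig j η P f := by
  let T : Set ℝ → ℕ → ℕ → E := fun X n => Nat.rec
    (fun _ => (((Real.sqrt η)⁻¹ : ℝ) : ℂ) • JJ j ((Sd η).indicator fun _ => M.Z M.Ω))
    (fun q t => Function.update t (q + 1) (JJ j ((Dt η \ X).indicator fun _ => M.opS (P q) q t M.Ω))) n
  have hT : ∀ X q, T X (q + 1) =
      Function.update (T X q) (q + 1) (JJ j ((Dt η \ X).indicator fun _ => M.opS (P q) q (T X q) M.Ω)) :=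
    fun _ _ => rfl
  have h : ∀ X q, ∀ i ≤ q, T X q i = T X i i := by
    intro X q
    induction q with
    | zero => intro i hi; rw [Nat.le_zero.mp hi]
    | succ q ih =>
      intro i hi
      rcases Nat.lt_or_eq_of_le hi with h | rfl
      · rw [hT, Function.update_of_ne h.ne, ih i (Nat.lt_succ_iff.mp h)]
      · rfl
  refine ⟨fun X q => T X q q, fun X => ⟨rfl, fun q => ?_⟩⟩
  beta_reduce
  rw [hT, Function.update_self, M.opS_congr (P q) q (h X q)]

end Model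
end Crest.Agent.R339
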