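import Crest.Agent.R339.Api.B3

/-! # Row 339 API: signals (statements frozen) -/

set_option autoImplicit false
open MeasureTheory ProbabilityTheory Filter Topology Complex
open Crest.MathPhysics.SpinGlass

namespace Crest.Agent.R339
variable {E K : Type} [NormedAddCommGroup E] [InnerProductSpace ℂ E]
  [NormedAddCommGroup K] [InnerProductSpace ℂ K] [CompleteSpace K]

namespace Model
variable (M : Model E K)

variable {j : Lp K 2 mu0 →ₗᵢ[ℂ] E} {η : ℝ} {P : ℕ → List (ℝ × (ℕ → ℝ))} {f : Set ℝ → ℕ → E}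

theorem b4_Sd (η : ℝ) : MeasurableSet (Sd η) := measurableSet_Ico
theorem b4_Dt (η : ℝ) : MeasurableSet (Dt η) := measurableSet_Ico

theorem b4_l1 (Q : List (ℝ × (ℕ → ℝ))) : 0 ≤ l1 Q :=
  List.sum_nonneg fun x hx => by
    obtain ⟨t, -, rfl⟩ := List.mem_map.1 hx
    exact abs_nonneg _

theorem b4_norm_opS (Q : List (ℝ × (ℕ → ℝ))) (q : ℕ) (g : ℕ → E) : ‖M.opS Q q g M.Ω‖ ≤ l1 Q := by
  refine ((M.opS Q q g).le_opNorm _).trans ?_
  rw [M.norm_Ω, mul_one]
  exact M.norm_opS Q q g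

theorem b4_norm_JJ {y : ℝ → K} {c : ℝ} (hc : 0 ≤ c) (h : ∀ u, ‖y u‖ ≤ c) : ‖JJ j y‖ ≤ c := by
  simpa using norm_JJ_le j MeasurableSet.univ hc (fun u _ => h u) fun u hu => absurd (Set.mem_univ u) hu

theorem b4_real {A B : K →L[ℂ] K} (hA : star A = A) (hB : star B = B) (h : Commute A B) (x : K) :
    (inner ℂ (A x) (B x)).im = 0 := by
  have e : ∀ {A : K →L[ℂ] K}, star A = A → ∀ x y, inner ℂ (A x) y = inner ℂ x (A y) := fun {A} hA x y => by
    conv_lhs => rw [← hA]
    rw [ContinuousLinearMap.star_eq_adjoint, ContinuousLinearMap.adjoint_inner_left]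
  rw [← Complex.conj_eq_iff_im, inner_conj_symm, e hA, e hB]
  exact congrArg (fun T : K →L[ℂ] K => inner ℂ x (T x)) h.symm.eq

theorem norm_sig_zero (hf : M.IsSig j η P f) (h0 : 0 < η) (h1 : η ≤ 1) (X : Set ℝ) :
    ‖f X 0‖ = 1 := by
  rw [(hf X).1, norm_smul, norm_JJ_indicator j (memLp_const _) (b4_Sd η)
    (fun u _ => by rw [unit_norm M.Z_mem, M.norm_Ω]), Sd, mu0_Ico le_rfl h0.le h1, sub_zero, Complex.norm_real,
    Real.norm_of_nonneg (by positivity), inv_mul_cancel₀ (Real.sqrt_pos.2 h0).ne']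
theorem norm_sig_succ (hf : M.IsSig j η P f) {X : Set ℝ} (hX : MeasurableSet X) (q : ℕ) :
    ‖f X (q + 1)‖ ≤ l1 (P q) := by
  rw [(hf X).2]
  exact b4_norm_JJ (b4_l1 _) fun u => (norm_indicator_le_norm_self _ _).trans (M.b4_norm_opS _ _ _)
/-- all signal fields commute (strong induction on `q + q'`: `⟪Ω, m m' Ω⟫` is real for commuting
self-adjoint `m, m'`; seed and data supports are disjoint). -/
theorem sig_im (hf : M.IsSig j η P f) (h0 : 0 < η) {X X' : Set ℝ} (hX : MeasurableSet X)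
    (hX' : MeasurableSet X') (q q' : ℕ) : (inner ℂ (f X q) (f X' q')).im = 0 := by
  have hd : ∀ (x x' : K) (Y : Set ℝ), inner ℂ (JJ j ((Sd η).indicator fun _ => x))
      (JJ j ((Dt η \ Y).indicator fun _ => x')) = 0 := fun x x' Y => JJ_orth j fun u => by
    by_cases hu : u ∈ Sd η
    · refine Or.inr (Set.indicator_of_notMem (fun h => ?_) _)
      have h1 := hu.2
      have h2 := h.1.1
      linarith
    · exact Or.inl (Set.indicator_of_notMem hu _)
  induction hn : q + q' using Nat.strong_induction_on generalizing q q' with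
  | _ n ih =>
    rcases q with _ | q <;> rcases q' with _ | q'
    · rw [(hf X).1, ← (hf X').1]
      exact inner_self_im (𝕜 := ℂ) _
    · rw [(hf X).1, (hf X').2, inner_smul_left, hd, mul_zero, Complex.zero_im]
    · rw [(hf X).2, (hf X').1, inner_smul_right, ← inner_conj_symm, hd, map_zero, mul_zero, Complex.zero_im]
    · rw [(hf X).2, (hf X').2, JJ_inner_const j ((b4_Dt η).diff hX) ((b4_Dt η).diff hX'), Complex.im_ofReal_mul,
        b4_real (M.opS_star _ _ _) (M.opS_star _ _ _), mul_zero]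
      refine M.opS_commute _ _ _ fun i hi t => (M.opS_commute _ _ _ fun i' hi' t' => (M.W_commute ?_).symm).symm
      rw [inner_smul_left, inner_smul_right, Complex.conj_ofReal, Complex.im_ofReal_mul, Complex.im_ofReal_mul,
        ih (i + i') (by omega) i i' rfl, mul_zero, mul_zero]
theorem sig_lip (hf : M.IsSig j η P f) (h0 : 0 < η) (h1 : η ≤ 1) (q : ℕ) :
    ∃ C : ℝ, 0 ≤ C ∧ ∀ X B : Set ℝ, MeasurableSet X → MeasurableSet B → ∀ i ≤ q,
      ‖f (X ∪ B) i - f X i‖ ≤ C * Real.sqrt (mu0.real B) ∧ ‖f X i‖ ≤ C := by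
  induction q with
  | zero =>
    refine ⟨1, zero_le_one, fun X B _ _ i hi => ?_⟩
    obtain rfl := Nat.le_zero.1 hi
    refine ⟨?_, (M.norm_sig_zero hf h0 h1 X).le⟩
    rw [(hf (X ∪ B)).1, (hf X).1, sub_self, norm_zero]
    positivity
  | succ q ih =>
    obtain ⟨C, hC, ih⟩ := ih
    obtain ⟨C', hC', hl⟩ := M.opS_lip (P q) q C
    have hP := b4_l1 (P q)
    have hCC : 0 ≤ C' * C := mul_nonneg hC' hC
    refine ⟨C + C' * C + l1 (P q), by positivity, fun X B hX hB i hi => ?_⟩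
    have hs := Real.sqrt_nonneg (mu0.real B)
    rcases hi.lt_or_eq with hi | rfl
    · obtain ⟨a1, a2⟩ := ih X B hX hB i (Nat.lt_succ_iff.1 hi)
      exact ⟨a1.trans (mul_le_mul_of_nonneg_right (by linarith) hs), a2.trans (by linarith)⟩
    refine ⟨?_, (M.norm_sig_succ hf hX q).trans (by linarith)⟩
    have hm : ∀ (x : K) {Y : Set ℝ}, MeasurableSet Y → MemLp ((Dt η \ Y).indicator fun _ => x) 2 mu0 :=
      fun x Y hY => (memLp_const x).indicator ((b4_Dt η).diff hY)
    have b1 := hl (f (X ∪ B)) (f X) (C * Real.sqrt (mu0.real B)) fun i hi =>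
      ⟨(ih (X ∪ B) B (hX.union hB) hB i hi).2, (ih X B hX hB i hi).2, (ih X B hX hB i hi).1⟩
    have b2 : ‖JJ j ((Dt η \ (X ∪ B)).indicator fun _ => M.opS (P q) q (f (X ∪ B)) M.Ω) -
        JJ j ((Dt η \ (X ∪ B)).indicator fun _ => M.opS (P q) q (f X) M.Ω)‖ ≤
        C' * (C * Real.sqrt (mu0.real B)) := by
      rw [← JJ_sub j (hm _ (hX.union hB)) (hm _ (hX.union hB))]
      refine b4_norm_JJ (by positivity) fun u => ?_
      by_cases hu : u ∈ Dt η \ (X ∪ B)
      · rwa [Set.indicator_of_mem hu, Set.indicator_of_mem hu]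
      · rw [Set.indicator_of_notMem hu, Set.indicator_of_notMem hu, sub_self, norm_zero]
        positivity
    have b3 : ‖JJ j ((Dt η \ (X ∪ B)).indicator fun _ => M.opS (P q) q (f X) M.Ω) -
        JJ j ((Dt η \ X).indicator fun _ => M.opS (P q) q (f X) M.Ω)‖ ≤ l1 (P q) * Real.sqrt (mu0.real B) := by
      rw [← JJ_sub j (hm _ (hX.union hB)) (hm _ hX)]
      refine norm_JJ_le j hB hP (fun u hu => ?_) fun u hu => ?_
      · rw [Set.indicator_of_notMem (fun h => h.2 (Or.inr hu)), zero_sub, norm_neg]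
        exact (norm_indicator_le_norm_self _ _).trans (M.b4_norm_opS _ _ _)
      · by_cases hu' : u ∈ Dt η \ X
        · rw [Set.indicator_of_mem hu', Set.indicator_of_mem (show u ∈ Dt η \ (X ∪ B) from
            ⟨hu'.1, fun h => h.elim hu'.2 hu⟩), sub_self]
        · rw [Set.indicator_of_notMem hu', Set.indicator_of_notMem fun h => hu' ⟨h.1, fun h' => h.2 (Or.inl h')⟩,
            sub_self]
    rw [(hf (X ∪ B)).2, (hf X).2]
    refine (norm_sub_le_norm_sub_add_norm_sub _ _ _).trans ((add_le_add b2 b3).trans ?_)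
    nlinarith [mul_nonneg hC hs]
/-- a field supported off the seeds and off the senders `Dt η \ X` is orthogonal to `f X q`. -/
theorem sig_orth (hf : M.IsSig j η P f) (X : Set ℝ) (q : ℕ) {y : ℝ → K}
    (hy : ∀ u, u ∈ Sd η ∨ u ∈ Dt η \ X → y u = 0) : inner ℂ (f X q) (JJ j y) = 0 := by
  rcases q with _ | q
  · rw [(hf X).1, inner_smul_left, JJ_orth j fun u => ?_, mul_zero]
    by_cases hu : u ∈ Sd η
    · exact Or.inr (hy u (Or.inl hu))
    · exact Or.inl (Set.indicator_of_notMem hu _)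
  · rw [(hf X).2]
    refine JJ_orth j fun u => ?_
    by_cases hu : u ∈ Dt η \ X
    · exact Or.inr (hy u (Or.inr hu))
    · exact Or.inl (Set.indicator_of_notMem hu _)

end Model
end Crest.Agent.R339
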