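import Crest.Agent.R339.Api.B4

/-! # Row 339 API: signal commutation (statements frozen) -/

set_option autoImplicit false
open MeasureTheory ProbabilityTheory Filter Topology Complex
open Crest.MathPhysics.SpinGlass

namespace Crest.Agent.R339
variable {E K : Type} [NormedAddCommGroup E] [InnerProductSpace ℂ E]
  [NormedAddCommGroup K] [InnerProductSpace ℂ K] [CompleteSpace K]

namespace Model
variable (M : Model E K)

variable {j : Lp K 2 mu0 →ₗᵢ[ℂ] E} {η : ℝ} {P : ℕ → List (ℝ × (ℕ → ℝ))} {f : Set ℝ → ℕ → E}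

/-- `T` commutes with all signal Weyl operators. -/
def SigComm (f : Set ℝ → ℕ → E) (T : K →L[ℂ] K) : Prop :=
  ∀ X q (t : ℝ), MeasurableSet X → Commute (M.W (((t : ℝ) : ℂ) • f X q)) T

theorem b5_im_smul {x y : E} (h : (inner ℂ x y).im = 0) (s t : ℝ) :
    (inner ℂ ((s : ℂ) • x) ((t : ℂ) • y)).im = 0 := by
  rw [inner_smul_left, inner_smul_right, Complex.conj_ofReal, Complex.im_ofReal_mul, Complex.im_ofReal_mul, h,
    mul_zero, mul_zero]

theorem b5_im_int {μ : Measure ℝ} {F : ℝ → ℂ} (h : ∀ u, (F u).im = 0) : (∫ u, F u ∂μ).im = 0 := by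
  have : F = fun u => (((F u).re : ℝ) : ℂ) := funext fun u => Complex.ext (by simp) (by simp [h u])
  rw [this, integral_complex_ofReal, Complex.ofReal_im]

theorem b5_im_comm {A B : K →L[ℂ] K} (hA : star A = A) (hB : star B = B) (h : Commute A B) (x : K) :
    (inner ℂ (A x) (B x)).im = 0 := by
  rw [← Complex.conj_eq_iff_im, inner_conj_symm]
  have h1 := inner_star_left A x (B x)
  have h2 := inner_star_left B x (A x)
  rw [hA] at h1
  rw [hB] at h2
  rw [h1, h2]
  exact congrArg (fun T : K →L[ℂ] K => inner ℂ x (T x)) h.eq.symm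

theorem SigComm.mul {T T' : K →L[ℂ] K} (h : M.SigComm f T) (h' : M.SigComm f T') :
    M.SigComm f (T * T') := by
  exact fun X q t hX => (h X q t hX).mul_right (h' X q t hX)
theorem SigComm.star {T : K →L[ℂ] K} (h : M.SigComm f T) : M.SigComm f (star T) := by
  intro X q t hX
  have := (h X q (-t) hX).star_star
  rwa [M.W_star, Complex.ofReal_neg, neg_smul, neg_neg] at this
theorem SigComm.smul {T : K →L[ℂ] K} (h : M.SigComm f T) (c : ℂ) : M.SigComm f (c • T) := by
  exact fun X q t hX => (h X q t hX).smul_right c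
theorem sigComm_one : M.SigComm f 1 := by
  exact fun X q t _ => Commute.one_right _
theorem sigComm_RX (a : ℝ) : M.SigComm f (M.RX a) := by
  exact fun X q t _ => (M.RX_commute (M.X_W _) a).symm
theorem sigComm_Z : M.SigComm f M.Z := by
  exact fun X q t _ => (M.Z_W _).symm
theorem sigComm_W {g : E} (h : ∀ X q, MeasurableSet X → (inner ℂ (f X q) g).im = 0) :
    M.SigComm f (M.W g) := by
  exact fun X q t hX => M.W_commute (by simpa using b5_im_smul (h X q hX) t 1)
theorem sigComm_WZ {g : E} (h : ∀ X q, MeasurableSet X → (inner ℂ (f X q) g).im = 0) :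
    M.SigComm f (M.WZ g) := by
  exact fun X q t hX => M.W_WZ_commute (by simpa using b5_im_smul (h X q hX) t 1)
theorem sigComm_opS (hf : M.IsSig j η P f) (h0 : 0 < η) (Q : List (ℝ × (ℕ → ℝ))) (q : ℕ)
    {X : Set ℝ} (hX : MeasurableSet X) : M.SigComm f (M.opS Q q (f X)) := by
  exact fun X' q' t hX' =>
    (M.opS_commute Q q (f X) fun i _ s => M.W_commute (b5_im_smul (M.sig_im hf h0 hX hX' i q') s t)).symm
theorem SigComm.opS {T : K →L[ℂ] K} (h : M.SigComm f T) (Q : List (ℝ × (ℕ → ℝ))) (q : ℕ)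
    {X : Set ℝ} (hX : MeasurableSet X) : Commute (M.opS Q q (f X)) T := by
  exact M.opS_commute Q q (f X) fun i _ t => h X i t hX
/-- KEY invariant: Heisenberg directions commute with the signals, since
`⟪m Ω, V* A V Ω⟫ = ⟪V Ω, m A V Ω⟫` is real; on the seeds `V* Z V Ω = Z Ω`. -/
theorem sig_im_psi (hf : M.IsSig j η P f) (h0 : 0 < η) {V : ℝ → K →L[ℂ] K} (hV : Simple V)
    (hU : ∀ u, V u ∈ unitary (K →L[ℂ] K)) (hS : ∀ u, M.SigComm f (V u))
    (hZ : ∀ u ∈ Sd η, Commute M.Z (V u)) {B : Set ℝ} (hB : MeasurableSet B) {X : Set ℝ}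
    (hX : MeasurableSet X) (q : ℕ) :
    (inner ℂ (f X q) (JJ j (B.indicator (M.psiL V)))).im = 0 := by
  have hy : MemLp (B.indicator (M.psiL V)) 2 mu0 := ((hV.comp M.psi).indicator hB).memLp mu0
  cases q with
  | zero =>
    rw [(hf X).1, inner_smul_left, Complex.conj_ofReal, Complex.im_ofReal_mul,
      JJ_inner j (((Simple.const (M.Z M.Ω)).indicator (S := Sd η) measurableSet_Ico).memLp mu0) hy,
      b5_im_int, mul_zero]
    intro u
    by_cases h1 : u ∈ Sd η
    · by_cases h2 : u ∈ B
      · rw [Set.indicator_of_mem h1, Set.indicator_of_mem h2, psiL, M.psi_of_commute (hU u) (hZ u h1)]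
        exact inner_self_im (𝕜 := ℂ) _
      · simp [Set.indicator_of_notMem h2]
    · simp [Set.indicator_of_notMem h1]
  | succ q =>
    rw [(hf X).2 q, JJ_inner j (((Simple.const (M.opS (P q) q (f X) M.Ω)).indicator (S := Dt η \ X)
      (measurableSet_Ico.diff hX)).memLp mu0) hy]
    refine b5_im_int fun u => ?_
    by_cases h1 : u ∈ Dt η \ X
    · by_cases h2 : u ∈ B
      · rw [Set.indicator_of_mem h1, Set.indicator_of_mem h2]
        have h3 : M.SigComm f (star (V u) * M.Z * V u) :=
          SigComm.mul M (SigComm.mul M (SigComm.star M (hS u)) M.sigComm_Z) (hS u)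
        exact b5_im_comm (M.opS_star (P q) q (f X))
          (by rw [star_mul, star_mul, star_star, M.Z_star, mul_assoc]) (SigComm.opS M h3 (P q) q hX) M.Ω
      · simp [Set.indicator_of_notMem h2]
    · simp [Set.indicator_of_notMem h1]

end Model
end Crest.Agent.R339
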